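import Vale.Agent.P125.Defs

/-!
From Markov type to an inequality for antisymmetric 1-forms along walks generated by involutions.
-/

namespace Vale.Agent.P125

open Finset Filter Topology

section walks

variable {Z A V : Type*}

/-- end point of the walk started at `z` following the word `w`. -/
def walkEnd (ρ : A → Z → Z) : Z → List A → Z
  | z, [] => z
  | z, a :: w => walkEnd ρ (ρ a z) w

/-- sum of the increments `y z a - y (ρ a z) a` along the walk. -/
def walkSum [AddCommGroup V] (ρ : A → Z → Z) (y : Z → A → V) : Z → List A → V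
  | _, [] => 0
  | z, a :: w => (y z a - y (ρ a z) a) + walkSum ρ y (ρ a z) w

lemma map_walkSum {V' : Type*} [AddCommGroup V] [AddCommGroup V'] (g : V →+ V')
    (ρ : A → Z → Z) (y : Z → A → V) (z : Z) (w : List A) :
    g (walkSum ρ y z w) = walkSum ρ (fun z a => g (y z a)) z w := by
  induction w generalizing z with
  | nil => simp [walkSum]
  | cons a w ih => simp [walkSum, ih]

lemma sum_words_succ [Fintype A] (t : ℕ) (F : List A → ℝ) :
    ∑ w : Fin (t + 1) → A, F (List.ofFn w) = ∑ a, ∑ w : Fin t → A, F (a :: List.ofFn w) := by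
  rw [← (Fin.consEquiv (fun _ : Fin (t + 1) => A)).sum_comp, Fintype.sum_prod_type]
  refine Finset.sum_congr rfl fun a _ => Finset.sum_congr rfl fun w _ => ?_
  simp [Fin.consEquiv, List.ofFn_succ]

end walks

/-- The form-type inequality for a function `Ψ` on an additive group. -/
def FT {V : Type*} [AddCommGroup V] (C : ℝ) (Ψ : V → ℝ) : Prop :=
  ∀ (Z A : Type) [Fintype Z] [Fintype A] (ρ : A → Z → Z), (∀ a z, ρ a (ρ a z) = z) →
    ∀ (y : Z → A → V) (t : ℕ), 1 ≤ t →
      (Fintype.card A : ℝ) * ∑ z, ∑ w : Fin t → A, Ψ (walkSum ρ y z (List.ofFn w)) ≤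
        C * t * (Fintype.card A : ℝ) ^ t * ∑ z, ∑ a, Ψ (y z a - y (ρ a z) a)

lemma FT.comp {V V' : Type*} [AddCommGroup V] [AddCommGroup V'] {C : ℝ} {Ψ : V' → ℝ}
    (h : FT C Ψ) (g : V →+ V') : FT C (fun v => Ψ (g v)) := by
  intro Z A _ _ ρ hρ y t ht
  have := h Z A ρ hρ (fun z a => g (y z a)) t ht
  simpa only [map_walkSum, map_sub] using this

lemma FT.sum {V ι : Type*} [AddCommGroup V] {C : ℝ} (s : Finset ι) (c : ι → ℝ)
    (hc : ∀ i ∈ s, 0 ≤ c i) {Ψ : ι → V → ℝ}
    (h : ∀ i ∈ s, FT C (Ψ i)) : FT C (fun v => ∑ i ∈ s, c i * Ψ i v) := by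
  intro Z A _ _ ρ hρ y t ht
  have h1 : ∀ i ∈ s, c i * ((Fintype.card A : ℝ) *
      ∑ z, ∑ w : Fin t → A, Ψ i (walkSum ρ y z (List.ofFn w))) ≤
      c i * (C * t * (Fintype.card A : ℝ) ^ t * ∑ z, ∑ a, Ψ i (y z a - y (ρ a z) a)) :=
    fun i hi => mul_le_mul_of_nonneg_left (h i hi Z A ρ hρ y t ht) (hc i hi)
  have h2 := Finset.sum_le_sum h1
  have e1 : (Fintype.card A : ℝ) * ∑ z, ∑ w : Fin t → A,
      ∑ i ∈ s, c i * Ψ i (walkSum ρ y z (List.ofFn w)) =
      ∑ i ∈ s, c i * ((Fintype.card A : ℝ) *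
      ∑ z, ∑ w : Fin t → A, Ψ i (walkSum ρ y z (List.ofFn w))) := by
    simp only [Finset.mul_sum]
    rw [Finset.sum_comm (s := s)]
    refine Finset.sum_congr rfl fun z _ => ?_
    rw [Finset.sum_comm (s := s)]
    refine Finset.sum_congr rfl fun w _ => Finset.sum_congr rfl fun i _ => by ring
  have e2 : C * t * (Fintype.card A : ℝ) ^ t * ∑ z, ∑ a, ∑ i ∈ s,
      c i * Ψ i (y z a - y (ρ a z) a) =
      ∑ i ∈ s, c i * (C * t * (Fintype.card A : ℝ) ^ t *
        ∑ z, ∑ a, Ψ i (y z a - y (ρ a z) a)) := by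
    simp only [Finset.mul_sum]
    rw [Finset.sum_comm (s := s)]
    refine Finset.sum_congr rfl fun z _ => ?_
    rw [Finset.sum_comm (s := s)]
    refine Finset.sum_congr rfl fun w _ => Finset.sum_congr rfl fun i _ => by ring
  show (Fintype.card A : ℝ) * ∑ z, ∑ w : Fin t → A,
      ∑ i ∈ s, c i * Ψ i (walkSum ρ y z (List.ofFn w)) ≤
      C * t * (Fintype.card A : ℝ) ^ t * ∑ z, ∑ a, ∑ i ∈ s, c i * Ψ i (y z a - y (ρ a z) a)
  rw [e1, e2]
  exact h2

lemma FT.of_tendsto {V ι : Type*} [AddCommGroup V] {C : ℝ} (l : Filter ι) [l.NeBot]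
    {Ψ : ι → V → ℝ} {Φ : V → ℝ} (h : ∀ i, FT C (Ψ i))
    (hl : ∀ v, Tendsto (fun i => Ψ i v) l (𝓝 (Φ v))) : FT C Φ := by
  intro Z A _ _ ρ hρ y t ht
  refine le_of_tendsto_of_tendsto' (b := l) ?_ ?_ (fun i => h i Z A ρ hρ y t ht)
  · exact (tendsto_finsetSum _ fun z _ => tendsto_finsetSum _ fun w _ => hl _).const_mul _
  · exact (tendsto_finsetSum _ fun z _ => tendsto_finsetSum _ fun w _ => hl _).const_mul _

section chain

variable {S A : Type} [Fintype S] [DecidableEq S] [Fintype A]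

/-- transition matrix of the walk choosing a uniformly random move. -/
noncomputable def moveMatrix (τ : A → S → S) : Matrix S S ℝ :=
  fun i j => (Fintype.card A : ℝ)⁻¹ * ∑ a, if τ a i = j then 1 else 0

lemma moveMatrix_sum (τ : A → S → S) (i : S) (F : S → ℝ) :
    ∑ j, moveMatrix τ i j * F j = (Fintype.card A : ℝ)⁻¹ * ∑ a, F (τ a i) := by
  simp only [moveMatrix, mul_assoc, ← Finset.mul_sum, Finset.sum_mul]
  congr 1
  rw [Finset.sum_comm]
  refine Finset.sum_congr rfl fun a _ => ?_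
  simp

lemma moveMatrix_pow_sum (τ : A → S → S) (t : ℕ) (i : S) (F : S → ℝ) :
    ∑ j, (moveMatrix τ ^ t) i j * F j =
      ((Fintype.card A : ℝ)⁻¹) ^ t * ∑ w : Fin t → A, F (walkEnd τ i (List.ofFn w)) := by
  induction t generalizing i with
  | zero => simp [Matrix.one_apply, walkEnd]
  | succ t ih =>
    rw [pow_succ', sum_words_succ t (fun l => F (walkEnd τ i l))]
    simp only [Matrix.mul_apply, Finset.sum_mul]
    rw [Finset.sum_comm]
    simp only [mul_assoc, ← Finset.mul_sum, ih]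
    rw [moveMatrix_sum τ i (fun k => ((Fintype.card A : ℝ)⁻¹) ^ t *
      ∑ w : Fin t → A, F (walkEnd τ k (List.ofFn w)))]
    simp only [← Finset.mul_sum, walkEnd]
    ring

end chain

variable {X : Type*} [NormedAddCommGroup X]

lemma markov_walk {p K : ℝ}
    (hK : ∀ (S : Type) [Fintype S] [DecidableEq S] (π : S → ℝ) (P : Matrix S S ℝ),
      (∀ i, 0 ≤ π i) → ∑ i, π i = 1 →
      (∀ i j, 0 ≤ P i j) → (∀ i, ∑ j, P i j = 1) →
      (∀ i j, π i * P i j = π j * P j i) →
      ∀ (f : S → X) (t : ℕ), 1 ≤ t →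
        ∑ i, ∑ j, π i * (P ^ t) i j * ‖f j - f i‖ ^ p ≤
          K ^ p * t * ∑ i, ∑ j, π i * P i j * ‖f j - f i‖ ^ p)
    {S A : Type} [Fintype S] [Fintype A] (τ : A → S → S) (hτ : ∀ a s, τ a (τ a s) = s)
    (f : S → X) (t : ℕ) (ht : 1 ≤ t) :
    (Fintype.card A : ℝ) * ∑ s, ∑ w : Fin t → A, ‖f (walkEnd τ s (List.ofFn w)) - f s‖ ^ p ≤
      K ^ p * t * (Fintype.card A : ℝ) ^ t * ∑ s, ∑ a, ‖f (τ a s) - f s‖ ^ p := by
  classical
  rcases isEmpty_or_nonempty S with hS | hS
  · simp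
  rcases isEmpty_or_nonempty A with hA | hA
  · simp
  have hA0 : (0 : ℝ) < Fintype.card A := by exact_mod_cast Fintype.card_pos
  have hS0 : (0 : ℝ) < Fintype.card S := by exact_mod_cast Fintype.card_pos
  have h := hK S (fun _ => (Fintype.card S : ℝ)⁻¹) (moveMatrix τ) (fun _ => by positivity)
    (by simp) (fun i j => by
      unfold moveMatrix
      refine mul_nonneg (by positivity) (Finset.sum_nonneg fun a _ => by split_ifs <;> norm_num))
    (fun i => by
      have := moveMatrix_sum τ i (fun _ => 1)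
      simp only [mul_one] at this
      rw [this]
      simp)
    (fun i j => by
      unfold moveMatrix
      congr 2
      refine Finset.sum_congr rfl fun a _ => ?_
      have : τ a i = j ↔ τ a j = i := ⟨fun h => by rw [← h, hτ], fun h => by rw [← h, hτ]⟩
      simp only [this])
    f t ht
  simp only [mul_assoc, ← Finset.mul_sum] at h
  have e1 : ∀ i, ∑ j, (moveMatrix τ ^ t) i j * ‖f j - f i‖ ^ p = ((Fintype.card A : ℝ)⁻¹) ^ t *
      ∑ w : Fin t → A, ‖f (walkEnd τ i (List.ofFn w)) - f i‖ ^ p :=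
    fun i => moveMatrix_pow_sum τ t i (fun j => ‖f j - f i‖ ^ p)
  have e2 : ∀ i, ∑ j, moveMatrix τ i j * ‖f j - f i‖ ^ p = (Fintype.card A : ℝ)⁻¹ *
      ∑ a, ‖f (τ a i) - f i‖ ^ p := fun i => moveMatrix_sum τ i (fun j => ‖f j - f i‖ ^ p)
  simp only [e1, e2, ← Finset.mul_sum] at h
  set L := ∑ s, ∑ w : Fin t → A, ‖f (walkEnd τ s (List.ofFn w)) - f s‖ ^ p
  set R := ∑ s, ∑ a, ‖f (τ a s) - f s‖ ^ p
  have h' := mul_le_mul_of_nonneg_left h
    (show (0 : ℝ) ≤ Fintype.card S * (Fintype.card A : ℝ) ^ t * Fintype.card A by positivity)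
  calc (Fintype.card A : ℝ) * L = Fintype.card S * (Fintype.card A : ℝ) ^ t * Fintype.card A *
        ((Fintype.card S : ℝ)⁻¹ * (((Fintype.card A : ℝ)⁻¹) ^ t * L)) := by
        rw [inv_pow]; field_simp
    _ ≤ _ := h'
    _ = _ := by field_simp

lemma walkEnd_subtype {Λ A : Type*} (B : Finset Λ) (τ : A → Λ → Λ) (hB : ∀ a, ∀ s ∈ B, τ a s ∈ B)
    (s : B) (w : List A) :
    ((walkEnd (fun a (s : B) => (⟨τ a s, hB a s s.2⟩ : B)) s w : B) : Λ) = walkEnd τ s w := by
  induction w generalizing s with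
  | nil => rfl
  | cons a w ih => simp only [walkEnd]; rw [ih]

lemma HasMarkovType.ft {p : ℝ} (hp : 0 < p) (h : HasMarkovType X p) :
    ∃ C : ℝ, 0 ≤ C ∧ FT C (fun x : X => ‖x‖ ^ p) := by
  classical
  obtain ⟨K, hK0, hK⟩ := h
  refine ⟨K ^ p, Real.rpow_nonneg hK0 _, ?_⟩
  intro Z A _ _ ρ hρ y t ht
  -- the lifted walk
  let T : A → Z × (Z × A → ℤ) → Z × (Z × A → ℤ) := fun a s =>
    (ρ a s.1, s.2 + Pi.single (s.1, a) 1 - Pi.single (ρ a s.1, a) 1)
  have hT : ∀ a s, T a (T a s) = s := by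
    intro a s
    simp only [T, hρ]
    ext e
    · rfl
    · simp
  let f : Z × (Z × A → ℤ) → X := fun s => ∑ e, s.2 e • y e.1 e.2
  have hf : ∀ a s, f (T a s) - f s = y s.1 a - y (ρ a s.1) a := by
    intro a s
    simp only [f, T, Pi.add_apply, Pi.sub_apply, sub_smul, add_smul, Finset.sum_sub_distrib,
      Finset.sum_add_distrib, Pi.single_apply, ite_smul, one_smul, zero_smul,
      Finset.sum_ite_eq', Finset.mem_univ, if_true]
    abel
  have hstep : ∀ a s e, s.2 e - 1 ≤ (T a s).2 e ∧ (T a s).2 e ≤ s.2 e + 1 := by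
    intro a s e
    simp only [T, Pi.add_apply, Pi.sub_apply, Pi.single_apply]
    split_ifs <;> omega
  set L := ∑ z, ∑ w : Fin t → A, ‖walkSum ρ y z (List.ofFn w)‖ ^ p with hL
  set R := ∑ z, ∑ a, ‖y z a - y (ρ a z) a‖ ^ p with hR
  set m := Fintype.card (Z × A)
  have key : ∀ n : ℕ, (n : ℝ) ^ m * ((Fintype.card A : ℝ) * L) ≤
      ((n : ℝ) + 2 * t) ^ m * (K ^ p * t * (Fintype.card A : ℝ) ^ t * R) := by
    intro n
    let q : ℤ := n + 2 * t
    let B : Finset (Z × (Z × A → ℤ)) :=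
      Finset.univ ×ˢ Fintype.piFinset (fun _ : Z × A => Finset.Ico (0 : ℤ) q)
    have memB : ∀ s, s ∈ B ↔ ∀ e, 0 ≤ s.2 e ∧ s.2 e < q := by
      intro s; simp [B, Fintype.mem_piFinset]
    let τ : A → Z × (Z × A → ℤ) → Z × (Z × A → ℤ) := fun a s =>
      if T a s ∈ B then T a s else s
    have hB : ∀ a, ∀ s ∈ B, τ a s ∈ B := by
      intro a s hs
      simp only [τ]
      split_ifs with h
      · exact h
      · exact hs
    have hτ : ∀ a, ∀ s ∈ B, τ a (τ a s) = s := by
      intro a s hs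
      by_cases h : T a s ∈ B
      · have : τ a s = T a s := if_pos h
        rw [this]
        simp only [τ, hT, hs, if_true]
      · have : τ a s = s := if_neg h
        rw [this, this]
    have hm := markov_walk hK (fun a (s : B) => (⟨τ a s, hB a s s.2⟩ : B))
      (fun a s => Subtype.ext (hτ a s s.2)) (fun s => f s) t ht
    simp only [walkEnd_subtype] at hm
    rw [Finset.sum_coe_sort B (fun s => ∑ w : Fin t → A,
      ‖f (walkEnd τ s (List.ofFn w)) - f s‖ ^ p),
      Finset.sum_coe_sort B (fun s => ∑ a, ‖f (τ a s) - f s‖ ^ p)] at hm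
    have hwalk : ∀ (w : List A) (s : Z × (Z × A → ℤ)),
        (∀ e, (w.length : ℤ) ≤ s.2 e ∧ s.2 e + w.length < q) →
        f (walkEnd τ s w) - f s = walkSum ρ y s.1 w := by
      intro w
      induction w with
      | nil => intro s _; simp [walkEnd, walkSum]
      | cons a w ih =>
        intro s hs
        have h1 : ∀ e, (w.length : ℤ) ≤ (T a s).2 e ∧ (T a s).2 e + w.length < q := by
          intro e
          have := hs e
          have := hstep a s e
          simp only [List.length_cons] at *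
          push_cast at *
          omega
        have h2 : T a s ∈ B := by
          rw [memB]; intro e; have := h1 e; omega
        have h3 : τ a s = T a s := if_pos h2
        simp only [walkEnd, walkSum, h3]
        have := ih (T a s) h1
        rw [← hf a s]
        have h4 : (T a s).1 = ρ a s.1 := rfl
        rw [← h4, ← this]
        abel
    -- lower bound of the left side
    let B' : Finset (Z × (Z × A → ℤ)) :=
      Finset.univ ×ˢ Fintype.piFinset (fun _ : Z × A => Finset.Ico (t : ℤ) (n + t))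
    have hsub : B' ⊆ B := by
      intro s hs
      rw [memB]
      simp only [B', Finset.mem_product, Finset.mem_univ, true_and, Fintype.mem_piFinset,
        Finset.mem_Ico] at hs
      intro e; have := hs e; simp only [q]; omega
    have hlow : (n : ℝ) ^ m * L ≤
        ∑ s ∈ B, ∑ w : Fin t → A, ‖f (walkEnd τ s (List.ofFn w)) - f s‖ ^ p := by
      refine le_trans (le_of_eq ?_) (Finset.sum_le_sum_of_subset_of_nonneg hsub
        (fun s _ _ => Finset.sum_nonneg fun w _ => Real.rpow_nonneg (norm_nonneg _) _))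
      have : ∀ s ∈ B', ∑ w : Fin t → A, ‖f (walkEnd τ s (List.ofFn w)) - f s‖ ^ p =
          ∑ w : Fin t → A, ‖walkSum ρ y s.1 (List.ofFn w)‖ ^ p := by
        intro s hs
        refine Finset.sum_congr rfl fun w _ => ?_
        rw [hwalk]
        simp only [B', Finset.mem_product, Finset.mem_univ, true_and, Fintype.mem_piFinset,
          Finset.mem_Ico] at hs
        intro e; have := hs e; simp only [q, List.length_ofFn]; omega
      rw [Finset.sum_congr rfl this, Finset.sum_product, hL, Finset.mul_sum]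
      refine Finset.sum_congr rfl fun z _ => ?_
      simp [Fintype.card_piFinset, m]
    have hup : ∑ s ∈ B, ∑ a, ‖f (τ a s) - f s‖ ^ p ≤ ((n : ℝ) + 2 * t) ^ m * R := by
      have : ∀ s ∈ B, ∑ a, ‖f (τ a s) - f s‖ ^ p ≤ ∑ a, ‖y s.1 a - y (ρ a s.1) a‖ ^ p := by
        intro s _
        refine Finset.sum_le_sum fun a _ => ?_
        simp only [τ]
        split_ifs with h
        · rw [hf]
        · rw [sub_self, norm_zero, Real.zero_rpow hp.ne']
          exact Real.rpow_nonneg (norm_nonneg _) _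
      refine le_trans (Finset.sum_le_sum this) (le_of_eq ?_)
      rw [Finset.sum_product, hR, Finset.mul_sum]
      refine Finset.sum_congr rfl fun z _ => ?_
      have hq : ((q.toNat : ℕ) : ℝ) = (n : ℝ) + 2 * t := by
        have : q.toNat = n + 2 * t := by simp only [q]; omega
        rw [this]; push_cast; ring
      simp [Fintype.card_piFinset, m, hq]
    have hc : 0 ≤ K ^ p * t * (Fintype.card A : ℝ) ^ t := by
      have := Real.rpow_nonneg hK0 p
      positivity
    calc (n : ℝ) ^ m * ((Fintype.card A : ℝ) * L) = (Fintype.card A : ℝ) * ((n : ℝ) ^ m * L) := by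
          ring
      _ ≤ (Fintype.card A : ℝ) *
          ∑ s ∈ B, ∑ w : Fin t → A, ‖f (walkEnd τ s (List.ofFn w)) - f s‖ ^ p :=
          mul_le_mul_of_nonneg_left hlow (by positivity)
      _ ≤ _ := hm
      _ ≤ K ^ p * t * (Fintype.card A : ℝ) ^ t * (((n : ℝ) + 2 * t) ^ m * R) :=
          mul_le_mul_of_nonneg_left hup hc
      _ = _ := by ring
  have hlim : Tendsto (fun n : ℕ => (1 + 2 * t * (n : ℝ)⁻¹) ^ m *
      (K ^ p * t * (Fintype.card A : ℝ) ^ t * R)) atTop
      (𝓝 ((1 + 2 * t * 0) ^ m * (K ^ p * t * (Fintype.card A : ℝ) ^ t * R))) :=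
    (((tendsto_inv_atTop_nhds_zero_nat (𝕜 := ℝ)).const_mul _).const_add _).pow _ |>.mul_const _
  simp only [mul_zero, add_zero, one_pow, one_mul] at hlim
  refine ge_of_tendsto hlim ?_
  filter_upwards [eventually_gt_atTop 0] with n hn
  have hn' : (0 : ℝ) < n := by exact_mod_cast hn
  have := key n
  have e : (1 + 2 * t * (n : ℝ)⁻¹) ^ m = ((n : ℝ) + 2 * t) ^ m / (n : ℝ) ^ m := by
    rw [← div_pow]; congr 1; field_simp
  rw [e, div_mul_eq_mul_div, le_div_iff₀ (by positivity)]
  linarith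

end Vale.Agent.P125
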