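import Mathlib

/-!
Uniformly convex renorming from finite midpoint derivations (in the spirit of Enflo and Lancien).
-/

namespace Vale.Agent.P125

open Filter Topology Finset Pointwise

variable {E : Type*} [NormedAddCommGroup E] [NormedSpace ℝ E]

lemma exists_gauge (C : Set E) (hC : Convex ℝ C) (hs : ∀ x ∈ C, -x ∈ C) (hne : C.Nonempty)
    (η : ℝ) (hη : 0 < η) : ∃ q : Seminorm ℝ E,
      (∀ x lam, q x < lam → ∃ a ∈ C, ‖x - lam • a‖ ≤ lam * η) ∧
      (∀ x lam, 0 < lam → ∀ a ∈ C, ‖x - lam • a‖ ≤ lam * η → q x ≤ lam) ∧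
      ∀ x, q x ≤ ‖x‖ / η := by
  have h0 : (0 : E) ∈ C := by
    obtain ⟨a, ha⟩ := hne
    have := hC ha (hs a ha) (show (0 : ℝ) ≤ 1 / 2 by norm_num) (show (0 : ℝ) ≤ 1 / 2 by norm_num)
      (by norm_num)
    simpa using this
  let K : Set E := C + Metric.closedBall 0 η
  have hK : Convex ℝ K := hC.add (convex_closedBall _ _)
  have memK : ∀ z, z ∈ K ↔ ∃ a ∈ C, ‖z - a‖ ≤ η := by
    intro z
    constructor
    · rintro ⟨a, ha, u, hu, rfl⟩
      exact ⟨a, ha, by simpa using hu⟩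
    · rintro ⟨a, ha, h⟩
      exact ⟨a, ha, z - a, by simpa using h, by simp⟩
  have hKs : ∀ ⦃x⦄, x ∈ K → -x ∈ K := by
    intro x hx
    obtain ⟨a, ha, h⟩ := (memK x).1 hx
    refine (memK _).2 ⟨-a, hs a ha, ?_⟩
    rwa [show -x - -a = -(x - a) by abel, norm_neg]
  have hK0 : K ∈ 𝓝 (0 : E) := by
    refine mem_of_superset (Metric.closedBall_mem_nhds 0 hη) fun z hz => (memK z).2 ⟨0, h0, ?_⟩
    simpa using hz
  have habs : Absorbent ℝ K := absorbent_nhds_zero hK0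
  have hscale : ∀ (x a : E) (lam : ℝ), 0 < lam → ‖x - lam • a‖ = lam * ‖lam⁻¹ • x - a‖ := by
    intro x a lam hlam
    rw [show x - lam • a = lam • (lam⁻¹ • x - a) by
      rw [smul_sub, smul_smul, mul_inv_cancel₀ hlam.ne', one_smul], norm_smul,
      Real.norm_eq_abs, abs_of_pos hlam]
  have h3 : ∀ x lam, 0 < lam → ∀ a ∈ C, ‖x - lam • a‖ ≤ lam * η → gauge K x ≤ lam := by
    intro x lam hlam a ha h
    refine gauge_le_of_mem hlam.le ⟨lam⁻¹ • x, (memK _).2 ⟨a, ha, ?_⟩, ?_⟩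
    · rw [hscale x a lam hlam] at h
      exact le_of_mul_le_mul_left h hlam
    · simp only [smul_smul, mul_inv_cancel₀ hlam.ne', one_smul]
  refine ⟨gaugeSeminorm ((balanced_iff_neg_mem hK).2 hKs) hK habs, ?_, h3, ?_⟩
  · intro x lam h
    have h' : gauge K x < lam := h
    have hlam : 0 < lam := lt_of_le_of_lt (gauge_nonneg _) h'
    have : gauge K (lam⁻¹ • x) < 1 := by
      rw [gauge_smul_of_nonneg (inv_pos.2 hlam).le, smul_eq_mul, inv_mul_lt_iff₀ hlam, mul_one]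
      exact h'
    obtain ⟨a, ha, h⟩ := (memK _).1
      (setOfPred_gauge_lt_one_subset_self hK (mem_of_mem_nhds hK0) habs this)
    refine ⟨a, ha, ?_⟩
    rw [hscale x a lam hlam]
    exact mul_le_mul_of_nonneg_left h hlam.le
  · intro x
    rcases eq_or_ne x 0 with rfl | hx
    · simp
    · refine h3 x _ (div_pos (norm_pos_iff.2 hx) hη) 0 h0 ?_
      rw [smul_zero, sub_zero, div_mul_cancel₀ _ hη.ne']

lemma defect_bound {a b c γ : ℝ} (hc : 0 ≤ c) (hγ : 0 ≤ γ) (h1 : c ≤ (a + b) / 2)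
    (h2 : (a ^ 2 + b ^ 2) / 2 - c ^ 2 ≤ γ ^ 2) : a ≤ c + 2 * γ := by
  have h3 : ((a + b) / 2 - c) ^ 2 + ((a - b) / 2) ^ 2 ≤ γ ^ 2 := by nlinarith
  have h4 : (a + b) / 2 - c ≤ γ :=
    abs_le_of_sq_le_sq' (by nlinarith [sq_nonneg ((a - b) / 2)]) hγ |>.2
  have h5 : (a - b) / 2 ≤ γ :=
    abs_le_of_sq_le_sq' (by nlinarith [sq_nonneg ((a + b) / 2 - c)]) hγ |>.2
  linarith

lemma seminorm_mid_le (q : Seminorm ℝ E) (x y : E) :
    q ((1 / 2 : ℝ) • (x + y)) ≤ (q x + q y) / 2 := by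
  rw [map_smul_eq_mul, Real.norm_eq_abs, abs_of_pos (by norm_num : (0 : ℝ) < 1 / 2)]
  have := map_add_le_add q x y
  linarith

lemma seminorm_sq_add_le (q : Seminorm ℝ E) (x y : E) (c : ℝ) (hc : 0 < c) :
    q (x + y) ^ 2 ≤ (1 + c) * q x ^ 2 + (1 + c⁻¹) * q y ^ 2 := by
  have h1 : q (x + y) ^ 2 ≤ (q x + q y) ^ 2 :=
    pow_le_pow_left₀ (apply_nonneg _ _) (map_add_le_add q x y) 2
  have h2 : 0 ≤ c⁻¹ * (c * q x - q y) ^ 2 := by positivity
  have h3 : c⁻¹ * (c * q x - q y) ^ 2 = c * q x ^ 2 - 2 * q x * q y + c⁻¹ * q y ^ 2 := by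
    field_simp; ring
  nlinarith

/-- a function behaving like the square of a continuous seminorm. -/
structure SqLike (G : E → ℝ) : Prop where
  nonneg : ∀ x, 0 ≤ G x
  smul : ∀ (c : ℝ) x, G (c • x) = c ^ 2 * G x
  add : ∀ x y (c : ℝ), 0 < c → G (x + y) ≤ (1 + c) * G x + (1 + c⁻¹) * G y

lemma SqLike.mid {G : E → ℝ} (h : SqLike G) (x y : E) :
    G ((1 / 2 : ℝ) • (x + y)) ≤ (G x + G y) / 2 := by
  rw [h.smul]
  have := h.add x y 1 one_pos
  norm_num at this ⊢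
  linarith

/-- hypothesis of the renorming theorem at one scale. -/
def FiniteDeriv (E : Type*) [NormedAddCommGroup E] [NormedSpace ℝ E] (ε : ℝ) : Prop :=
  ∃ C : ℕ → Set E, (∀ x, ‖x‖ ≤ 1 → x ∈ C 0) ∧ (∀ n, Convex ℝ (C n)) ∧ (∀ n, ∀ x ∈ C n, -x ∈ C n) ∧
    (∀ n, ∀ x ∈ C n, ∀ y ∈ C n, ε ≤ ‖x - y‖ → (1 / 2 : ℝ) • (x + y) ∈ C (n + 1)) ∧
    ∃ N, C N = ∅

lemma one_scale {ε : ℝ} (hε : 0 < ε) (h : FiniteDeriv E (ε / 4)) :
    ∃ G : E → ℝ, SqLike G ∧ (∀ x, G x ≤ ‖x‖ ^ 2) ∧ ∃ κ : ℝ, 0 < κ ∧ ∀ x y : E, ‖x‖ ≤ 1 → ‖y‖ ≤ 1 →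
      ε ≤ ‖x - y‖ → κ ≤ (G x + G y) / 2 - G ((1 / 2 : ℝ) • (x + y)) := by
  classical
  obtain ⟨C, h0, hconv, hsymm, hmid, hN⟩ := h
  set N := Nat.find hN with hNdef
  have hCN : C N = ∅ := Nat.find_spec hN
  have hne : ∀ n, n < N → (C n).Nonempty := fun n hn =>
    Set.nonempty_iff_ne_empty.2 (Nat.find_min hN hn)
  have hN0 : 0 < N := by
    rcases Nat.eq_zero_or_pos N with h | h
    · rw [h] at hCN
      have := h0 0 (by simp)
      rw [hCN] at this
      exact absurd this (Set.notMem_empty _)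
    · exact h
  have hN' : (0 : ℝ) < N := by exact_mod_cast hN0
  have hq : ∀ n, ∃ q : Seminorm ℝ E, n < N →
      (∀ x lam, q x < lam → ∃ a ∈ C n, ‖x - lam • a‖ ≤ lam * (ε / 8)) ∧
      (∀ x lam, 0 < lam → ∀ a ∈ C n, ‖x - lam • a‖ ≤ lam * (ε / 8) → q x ≤ lam) ∧
      ∀ x, q x ≤ ‖x‖ / (ε / 8) := by
    intro n
    by_cases hn : n < N
    · obtain ⟨q, hq⟩ := exists_gauge (C n) (hconv n) (hsymm n) (hne n hn) (ε / 8) (by positivity)
      exact ⟨q, fun _ => hq⟩
    · exact ⟨0, fun h => absurd h hn⟩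
  choose q hq using hq
  set w : ℝ := (ε / 8) ^ 2 / N with hw
  have hw0 : 0 < w := by positivity
  set γ : ℝ := 1 / (3 * N) with hγ
  have hγ0 : 0 < γ := by positivity
  refine ⟨fun x => w * ∑ n ∈ range N, q n x ^ 2, ⟨fun x => by positivity, fun c x => ?_,
    fun x y c hc => ?_⟩, fun x => ?_, w * γ ^ 2, by positivity, fun x y hx hy hxy => ?_⟩
  · simp only [map_smul_eq_mul, mul_pow, Real.norm_eq_abs, sq_abs, ← Finset.mul_sum]
    ring
  · have := Finset.sum_le_sum (s := range N) fun n _ => seminorm_sq_add_le (q n) x y c hc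
    rw [Finset.sum_add_distrib, ← Finset.mul_sum, ← Finset.mul_sum] at this
    nlinarith
  · have : ∀ n ∈ range N, q n x ^ 2 ≤ (‖x‖ / (ε / 8)) ^ 2 := fun n hn =>
      pow_le_pow_left₀ (apply_nonneg _ _) ((hq n (mem_range.1 hn)).2.2 x) 2
    have h1 := Finset.sum_le_sum this
    rw [Finset.sum_const, card_range, nsmul_eq_mul] at h1
    calc w * ∑ n ∈ range N, q n x ^ 2 ≤ w * (N * (‖x‖ / (ε / 8)) ^ 2) :=
          mul_le_mul_of_nonneg_left h1 hw0.le
      _ = ‖x‖ ^ 2 := by rw [hw]; field_simp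
  · by_contra hlt
    have hlt := not_le.1 hlt
    set m := (1 / 2 : ℝ) • (x + y) with hm
    have hterm : ∀ n, 0 ≤ (q n x ^ 2 + q n y ^ 2) / 2 - q n m ^ 2 := by
      intro n
      have h1 := seminorm_mid_le (q n) x y
      have h2 : q n m ^ 2 ≤ ((q n x + q n y) / 2) ^ 2 :=
        pow_le_pow_left₀ (apply_nonneg _ _) h1 2
      nlinarith [sq_nonneg (q n x - q n y)]
    have hsum : ∑ n ∈ range N, ((q n x ^ 2 + q n y ^ 2) / 2 - q n m ^ 2) ≤ γ ^ 2 := by
      rw [Finset.sum_sub_distrib, ← Finset.sum_div, Finset.sum_add_distrib]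
      refine le_of_mul_le_mul_left ?_ hw0
      nlinarith
    have hdef : ∀ n, n < N → q n x ≤ q n m + 2 * γ ∧ q n y ≤ q n m + 2 * γ := by
      intro n hn
      have h1 : (q n x ^ 2 + q n y ^ 2) / 2 - q n m ^ 2 ≤ γ ^ 2 :=
        (Finset.single_le_sum (fun n _ => hterm n) (mem_range.2 hn)).trans hsum
      have h2 := seminorm_mid_le (q n) x y
      exact ⟨defect_bound (apply_nonneg _ _) hγ0.le h2 h1,
        defect_bound (b := q n x) (apply_nonneg _ _) hγ0.le (by linarith) (by linarith)⟩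
    have hstep : ∀ n, n < N → q n x ≤ 1 + 3 * γ * n → q n y ≤ 1 + 3 * γ * n →
        ∃ a ∈ C (n + 1), ‖m - (1 + 3 * γ * n + γ) • a‖ ≤ (1 + 3 * γ * n + γ) * (ε / 8) := by
      intro n hn h1 h2
      set lam := 1 + 3 * γ * n + γ with hlam
      have hlam0 : 0 < lam := by positivity
      have hlam2 : lam ≤ 2 := by
        have : (n : ℝ) + 1 ≤ N := by exact_mod_cast hn
        have e : 3 * γ * N = 1 := by rw [hγ]; field_simp
        nlinarith
      obtain ⟨a, ha, ha'⟩ := (hq n hn).1 x lam (by linarith)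
      obtain ⟨b, hb, hb'⟩ := (hq n hn).1 y lam (by linarith)
      have hab : ε / 4 ≤ ‖a - b‖ := by
        have e : x - y = (x - lam • a) - (y - lam • b) + lam • (a - b) := by
          rw [smul_sub]; abel
        have h3 : ‖x - y‖ ≤ ‖x - lam • a‖ + ‖y - lam • b‖ + lam * ‖a - b‖ := by
          rw [e]
          refine (norm_add_le _ _).trans (add_le_add (norm_sub_le _ _) (le_of_eq ?_))
          rw [norm_smul, Real.norm_eq_abs, abs_of_pos hlam0]
        nlinarith [norm_nonneg (a - b)]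
      refine ⟨_, hmid n a ha b hb hab, ?_⟩
      have e : m - lam • (1 / 2 : ℝ) • (a + b) = (1 / 2 : ℝ) • ((x - lam • a) + (y - lam • b)) := by
        rw [hm]; module
      rw [e, norm_smul, Real.norm_eq_abs, abs_of_pos (by norm_num : (0 : ℝ) < 1 / 2)]
      have := norm_add_le (x - lam • a) (y - lam • b)
      linarith
    have hind : ∀ n, n < N → q n x ≤ 1 + 3 * γ * n ∧ q n y ≤ 1 + 3 * γ * n := by
      intro n
      induction n with
      | zero =>
        intro hn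
        simp only [Nat.cast_zero, mul_zero, add_zero]
        exact ⟨(hq 0 hn).2.1 x 1 one_pos x (h0 x hx) (by simp; positivity),
          (hq 0 hn).2.1 y 1 one_pos y (h0 y hy) (by simp; positivity)⟩
      | succ n ih =>
        intro hn
        obtain ⟨h1, h2⟩ := ih (by omega)
        obtain ⟨a, ha, ha'⟩ := hstep n (by omega) h1 h2
        have h3 := (hq (n + 1) hn).2.1 m _ (by positivity) a ha ha'
        obtain ⟨h4, h5⟩ := hdef (n + 1) hn
        push_cast
        constructor <;> linarith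
    obtain ⟨n, hn⟩ : ∃ n, N = n + 1 := Nat.exists_eq_add_one_of_ne_zero hN0.ne'
    obtain ⟨h1, h2⟩ := hind n (by omega)
    obtain ⟨a, ha, -⟩ := hstep n (by omega) h1 h2
    rw [← hn, hCN] at ha
    exact ha

theorem renorm (h : ∀ ε : ℝ, 0 < ε → FiniteDeriv E ε) : ∃ N : Seminorm ℝ E,
    (∀ x, ‖x‖ ≤ N x ∧ N x ≤ 2 * ‖x‖) ∧ ∀ ε : ℝ, 0 < ε → ∃ δ : ℝ, 0 < δ ∧
      ∀ x y : E, N x ≤ 1 → N y ≤ 1 → ε ≤ N (x - y) → N ((1 / 2 : ℝ) • (x + y)) ≤ 1 - δ := by
  have h1 := fun k : ℕ => one_scale (ε := 1 / ((k : ℝ) + 1)) (by positivity)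
    (h _ (by positivity))
  choose G hG hGle κ hκ hκ' using h1
  have hsum : ∀ x, Summable fun k : ℕ => (1 / 2 : ℝ) ^ k * G k x := fun x =>
    Summable.of_nonneg_of_le (fun k => mul_nonneg (by positivity) ((hG k).nonneg x))
      (fun k => mul_le_mul_of_nonneg_left (hGle k x) (by positivity))
      (summable_geometric_two.mul_right _)
  let F : E → ℝ := fun x => ‖x‖ ^ 2 + ∑' k : ℕ, (1 / 2 : ℝ) ^ k * G k x
  have hF0 : ∀ x, ‖x‖ ^ 2 ≤ F x := fun x => le_add_of_nonneg_right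
    (tsum_nonneg fun k => mul_nonneg (by positivity) ((hG k).nonneg x))
  have hF1 : ∀ x, F x ≤ (2 * ‖x‖) ^ 2 := by
    intro x
    have := (hsum x).tsum_le_tsum (fun k => mul_le_mul_of_nonneg_left (hGle k x) (by positivity))
      (summable_geometric_two.mul_right _)
    rw [tsum_mul_right, tsum_geometric_two] at this
    simp only [F]
    nlinarith [sq_nonneg ‖x‖]
  have hF : SqLike F := by
    refine ⟨fun x => (sq_nonneg _).trans (hF0 x), fun c x => ?_, fun x y c hc => ?_⟩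
    · simp only [F, (hG _).smul, norm_smul, mul_pow, Real.norm_eq_abs, sq_abs, mul_add]
      rw [← tsum_mul_left]
      congr 1
      exact tsum_congr fun k => by ring
    · have a1 := seminorm_sq_add_le (normSeminorm ℝ E) x y c hc
      simp only [coe_normSeminorm] at a1
      have a2 := (hsum (x + y)).tsum_le_tsum (g := fun k : ℕ =>
        (1 + c) * ((1 / 2 : ℝ) ^ k * G k x) + (1 + c⁻¹) * ((1 / 2 : ℝ) ^ k * G k y))
        (fun k => by
          have := mul_le_mul_of_nonneg_left ((hG k).add x y c hc)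
            (show (0 : ℝ) ≤ (1 / 2) ^ k by positivity)
          linarith)
        (((hsum x).mul_left _).add ((hsum y).mul_left _))
      rw [((hsum x).mul_left _).tsum_add ((hsum y).mul_left _), tsum_mul_left,
        tsum_mul_left] at a2
      simp only [F]
      linarith
  have hl : ∀ x, ‖x‖ ≤ √(F x) := fun x => Real.le_sqrt_of_sq_le (hF0 x)
  let N : Seminorm ℝ E := Seminorm.of (fun x => √(F x))
    (fun x y => by
      rcases eq_or_ne x 0 with rfl | hx
      · simp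
      rcases eq_or_ne y 0 with rfl | hy
      · simp
      have hx' : 0 < √(F x) := lt_of_lt_of_le (norm_pos_iff.2 hx) (hl x)
      have hy' : 0 < √(F y) := lt_of_lt_of_le (norm_pos_iff.2 hy) (hl y)
      rw [Real.sqrt_le_left (by positivity)]
      have := hF.add x y (√(F y) / √(F x)) (by positivity)
      refine this.trans (le_of_eq ?_)
      have e1 := Real.sq_sqrt (hF.nonneg x)
      have e2 := Real.sq_sqrt (hF.nonneg y)
      generalize √(F x) = a at *
      generalize √(F y) = b at *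
      rw [← e1, ← e2]
      field_simp
      ring)
    (fun c x => by
      rw [hF.smul, Real.sqrt_mul (sq_nonneg _), Real.sqrt_sq_eq_abs, Real.norm_eq_abs])
  have hN : ∀ x, N x = √(F x) := fun x => rfl
  have hu : ∀ x, N x ≤ 2 * ‖x‖ := fun x => by
    rw [hN, Real.sqrt_le_left (by positivity)]; exact hF1 x
  refine ⟨N, fun x => ⟨hl x, hu x⟩, fun ε hε => ?_⟩
  obtain ⟨k, hk⟩ := exists_nat_one_div_lt (show 0 < ε / 2 by positivity)
  refine ⟨(1 / 2 : ℝ) ^ k * κ k / 2, by have := hκ k; positivity, fun x y hx hy hxy => ?_⟩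
  have hx1 : F x ≤ 1 := by rw [hN, Real.sqrt_le_left zero_le_one] at hx; simpa using hx
  have hy1 : F y ≤ 1 := by rw [hN, Real.sqrt_le_left zero_le_one] at hy; simpa using hy
  have h2 := hκ' k x y ((hl x).trans hx) ((hl y).trans hy) (by linarith [hu (x - y)])
  set m := (1 / 2 : ℝ) • (x + y) with hm
  have h3 : (1 / 2 : ℝ) ^ k * κ k ≤ (F x + F y) / 2 - F m := by
    have s1 : Summable fun j : ℕ => (1 / 2 : ℝ) ^ j * ((G j x + G j y) / 2 - G j m) := by
      refine ((((hsum x).add (hsum y)).div_const 2).sub (hsum m)).congr fun j => by ring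
    have s2 := s1.le_tsum k fun j _ => mul_nonneg (by positivity)
      (sub_nonneg.2 ((hG j).mid x y))
    have s3 : ∑' j : ℕ, (1 / 2 : ℝ) ^ j * ((G j x + G j y) / 2 - G j m) =
        (∑' j : ℕ, (1 / 2 : ℝ) ^ j * G j x + ∑' j : ℕ, (1 / 2 : ℝ) ^ j * G j y) / 2 -
          ∑' j : ℕ, (1 / 2 : ℝ) ^ j * G j m := by
      rw [← (hsum x).tsum_add (hsum y), ← tsum_div_const,
        ← (((hsum x).add (hsum y)).div_const 2).tsum_sub (hsum m)]
      exact tsum_congr fun j => by ring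
    have s4 : ‖m‖ ^ 2 ≤ (‖x‖ ^ 2 + ‖y‖ ^ 2) / 2 := by
      have h1 := seminorm_mid_le (normSeminorm ℝ E) x y
      simp only [coe_normSeminorm] at h1
      have h2 : ‖m‖ ^ 2 ≤ ((‖x‖ + ‖y‖) / 2) ^ 2 := pow_le_pow_left₀ (norm_nonneg _) h1 2
      nlinarith [sq_nonneg (‖x‖ - ‖y‖)]
    have s5 := mul_le_mul_of_nonneg_left h2 (show (0 : ℝ) ≤ (1 / 2) ^ k by positivity)
    simp only [F]
    linarith
  have h4 : F m ≤ 1 - (1 / 2 : ℝ) ^ k * κ k := by linarith
  have h5 := hF.nonneg m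
  rw [hN, Real.sqrt_le_left (by linarith)]
  nlinarith [sq_nonneg ((1 / 2 : ℝ) ^ k * κ k / 2)]

end Vale.Agent.P125
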