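import Vale.Agent.P125.NoLadder
import Vale.Agent.P125.Renorm

/-!
Martingale ladders, and the finiteness of the midpoint derivation under Markov type.
-/

namespace Vale.Agent.P125

open Filter Topology Finset Finsupp

section noladder

variable {X : Type*} [NormedAddCommGroup X] [NormedSpace ℝ X]

/-- the `L_p` seminorm of combinations of random vectors -/
noncomputable def lpSemi {Ω : Type} [Fintype Ω] (w : Ω → ℝ) (hw : ∀ ω, 0 ≤ w ω) (p : ℝ)
    (hp : 1 ≤ p) (T : Ω → (ℕ →₀ ℝ) →ₗ[ℝ] X) : Seminorm ℝ (ℕ →₀ ℝ) :=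
  Seminorm.of (fun a => (∑ ω, w ω * ‖T ω a‖ ^ p) ^ (1 / p))
    (fun a b => by
      have hp0 : 0 < p := by linarith
      have e : ∀ ω (r : ℝ), 0 ≤ r → w ω * r ^ p = (w ω ^ (1 / p) * r) ^ p := by
        intro ω r hr
        rw [Real.mul_rpow (Real.rpow_nonneg (hw ω) _) hr, ← Real.rpow_mul (hw ω),
          one_div_mul_cancel hp0.ne', Real.rpow_one]
      simp only [e _ _ (norm_nonneg _)]
      refine le_trans ?_ (Real.Lp_add_le_of_nonneg univ hp
        (fun ω _ => mul_nonneg (Real.rpow_nonneg (hw ω) _) (norm_nonneg _))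
        (fun ω _ => mul_nonneg (Real.rpow_nonneg (hw ω) _) (norm_nonneg _)))
      refine Real.rpow_le_rpow (Finset.sum_nonneg fun ω _ => Real.rpow_nonneg
        (mul_nonneg (Real.rpow_nonneg (hw ω) _) (norm_nonneg _)) _)
        (Finset.sum_le_sum fun ω _ => Real.rpow_le_rpow
          (mul_nonneg (Real.rpow_nonneg (hw ω) _) (norm_nonneg _)) ?_ hp0.le) (by positivity)
      rw [← mul_add, map_add]
      exact mul_le_mul_of_nonneg_left (norm_add_le _ _) (Real.rpow_nonneg (hw ω) _))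
    (fun c a => by
      have hp0 : 0 < p := by linarith
      simp only [map_smul, norm_smul, Real.mul_rpow (norm_nonneg _) (norm_nonneg _)]
      have : ∑ ω, w ω * (‖c‖ ^ p * ‖T ω a‖ ^ p) = ‖c‖ ^ p * ∑ ω, w ω * ‖T ω a‖ ^ p := by
        rw [Finset.mul_sum]; exact Finset.sum_congr rfl fun ω _ => by ring
      rw [this, Real.mul_rpow (Real.rpow_nonneg (norm_nonneg _) _) (Finset.sum_nonneg fun ω _ =>
        mul_nonneg (hw ω) (Real.rpow_nonneg (norm_nonneg _) _)), ← Real.rpow_mul (norm_nonneg _),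
        mul_one_div_cancel hp0.ne', Real.rpow_one])

lemma lpSemi_apply {Ω : Type} [Fintype Ω] (w : Ω → ℝ) (hw : ∀ ω, 0 ≤ w ω) (p : ℝ)
    (hp : 1 ≤ p) (T : Ω → (ℕ →₀ ℝ) →ₗ[ℝ] X) (a : ℕ →₀ ℝ) :
    lpSemi w hw p hp T a = (∑ ω, w ω * ‖T ω a‖ ^ p) ^ (1 / p) := rfl

theorem no_ladder {p θ : ℝ} (hp : 1 < p) (hθ : 0 < θ) (hX : HasMarkovType X p) :
    ¬ ∀ n : ℕ, ∃ (Ω : Type) (_ : Fintype Ω) (w : Ω → ℝ) (Y : ℕ → Ω → X),
      (∀ ω, 0 ≤ w ω) ∧ ∑ ω, w ω = 1 ∧ (∀ j ω, ‖Y j ω‖ ≤ 1) ∧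
      ∀ c < n, ∃ φ : Ω → X →ₗ[ℝ] ℝ, (∀ ω v, φ ω v ≤ ‖v‖) ∧ ∀ i j, i < c → c ≤ j → j < n →
        θ ≤ ∑ ω, w ω * φ ω (Y i ω) - ∑ ω, w ω * φ ω (Y j ω) := by
  intro h
  have hp0 : 0 < p := by linarith
  obtain ⟨C, hC, hft⟩ := hX.ft hp0
  choose Ω inst w Y hw0 hw1 hY hφ using h
  let T : ∀ n, Ω n → (ℕ →₀ ℝ) →ₗ[ℝ] X := fun n ω =>
    Finsupp.linearCombination ℝ (fun i => Y n i ω)
  have hT : ∀ n ω i, T n ω (single i 1) = Y n i ω := by intro n ω i; simp [T]
  obtain ⟨S⟩ := exists_spr (C := C) (θ := θ) hp0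
    (fun n => lpSemi (w n) (hw0 n) p hp.le (T n)) (fun n i => by
      rw [lpSemi_apply]
      refine Real.rpow_le_one (Finset.sum_nonneg fun ω _ =>
        mul_nonneg (hw0 n ω) (Real.rpow_nonneg (norm_nonneg _) _)) ?_ (by positivity)
      refine le_trans (Finset.sum_le_sum fun ω _ => mul_le_of_le_one_right (hw0 n ω) ?_)
        (hw1 n).le
      rw [hT]
      exact Real.rpow_le_one (norm_nonneg _) (hY n i ω) hp0.le)
    (fun n => by
      have h1 := FT.sum univ (w n) (fun ω _ => hw0 n ω)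
        (Ψ := fun ω a => ‖T n ω a‖ ^ p) (fun ω _ => hft.comp (T n ω).toAddMonoidHom)
      have e : (fun a => lpSemi (w n) (hw0 n) p hp.le (T n) a ^ p) =
          fun a => ∑ ω, w n ω * ‖T n ω a‖ ^ p := by
        funext a
        rw [lpSemi_apply, ← Real.rpow_mul (Finset.sum_nonneg fun ω _ =>
          mul_nonneg (hw0 n ω) (Real.rpow_nonneg (norm_nonneg _) _)),
          one_div_mul_cancel hp0.ne', Real.rpow_one]
      rw [e]
      exact h1)
    (fun n c hc => by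
      obtain ⟨φ, hφ1, hφ2⟩ := hφ n c hc
      refine ⟨∑ ω, w n ω • (φ ω).comp (T n ω), fun a => ?_, fun i j hi hj hn => ?_⟩
      · rw [lpSemi_apply]
        refine le_trans ?_ (Real.arith_mean_le_rpow_mean univ (w n) (fun ω => ‖T n ω a‖)
          (fun ω _ => hw0 n ω) (hw1 n) (fun ω _ => norm_nonneg _) hp.le)
        simp only [LinearMap.sum_apply, LinearMap.smul_apply, LinearMap.comp_apply, smul_eq_mul]
        exact Finset.sum_le_sum fun ω _ => mul_le_mul_of_nonneg_left (hφ1 ω _) (hw0 n ω)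
      · simp only [LinearMap.sum_apply, LinearMap.smul_apply, LinearMap.comp_apply, smul_eq_mul,
          hT]
        exact hφ2 i j hi hj hn)
  exact S.false hC hp hθ

end noladder

section ladder

variable {E F : Type*} [NormedAddCommGroup E] [NormedSpace ℝ E] [NormedAddCommGroup F]
  [NormedSpace ℝ F] (β : E →ₗ[ℝ] F →ₗ[ℝ] ℝ)

/-- `x` is the barycenter of a martingale ladder of length `n`. -/
def IsLad (θ : ℝ) (n : ℕ) (x : E) : Prop :=
  ‖x‖ ≤ 1 ∧ ∃ (Ω : Type) (_ : Fintype Ω) (w : Ω → ℝ) (M : ℕ → Ω → E) (G : ℕ → Ω → F),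
    (∀ ω, 0 ≤ w ω) ∧ ∑ ω, w ω = 1 ∧ (∀ j ω, ‖M j ω‖ ≤ 1) ∧ (∀ j ω, ‖G j ω‖ ≤ 1) ∧
    (∀ j, ∑ ω, w ω • M j ω = x) ∧ (∀ k, ∑ ω, w ω • G k ω = 0) ∧
    (∀ j k, j < k → ∑ ω, w ω * β (M j ω) (G k ω) = 0) ∧
    (∀ j k, k ≤ j → j < n → θ ≤ ∑ ω, w ω * β (M j ω) (G k ω))

lemma isLad_zero (θ : ℝ) (x : E) (hx : ‖x‖ ≤ 1) : IsLad β θ 0 x :=
  ⟨hx, Unit, inferInstance, fun _ => 1, fun _ _ => x, fun _ _ => 0, fun _ => zero_le_one,
    by simp, fun _ _ => hx, by simp, by simp, by simp, by simp, by simp⟩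

lemma IsLad.neg {θ : ℝ} {n : ℕ} {x : E} (h : IsLad β θ n x) : IsLad β θ n (-x) := by
  obtain ⟨hx, Ω, _, w, M, G, h1, h2, h3, h4, h5, h6, h7, h8⟩ := h
  refine ⟨by rwa [norm_neg], Ω, inferInstance, w, fun j ω => -M j ω, fun j ω => -G j ω, h1, h2,
    fun j ω => by rw [norm_neg]; exact h3 j ω, fun j ω => by rw [norm_neg]; exact h4 j ω,
    fun j => by simp [h5], fun k => by simp [h6], fun j k h => by simpa using h7 j k h,
    fun j k h h' => by simpa using h8 j k h h'⟩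

lemma sum_mix {Ω Ω' V : Type*} [Fintype Ω] [Fintype Ω'] [AddCommGroup V] [Module ℝ V]
    (a b : ℝ) (w : Ω → ℝ) (w' : Ω' → ℝ) (f : Ω ⊕ Ω' → V) :
    ∑ ω, Sum.elim (fun ω => a * w ω) (fun ω => b * w' ω) ω • f ω =
      a • ∑ ω, w ω • f (Sum.inl ω) + b • ∑ ω, w' ω • f (Sum.inr ω) := by
  simp [Fintype.sum_sum_type, Finset.smul_sum, smul_smul]

lemma sum_mix' {Ω Ω' : Type*} [Fintype Ω] [Fintype Ω']
    (a b : ℝ) (w : Ω → ℝ) (w' : Ω' → ℝ) (f : Ω ⊕ Ω' → ℝ) :
    ∑ ω, Sum.elim (fun ω => a * w ω) (fun ω => b * w' ω) ω * f ω =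
      a * ∑ ω, w ω * f (Sum.inl ω) + b * ∑ ω, w' ω * f (Sum.inr ω) :=
  sum_mix a b w w' f

lemma convex_isLad (θ : ℝ) (n : ℕ) : Convex ℝ {x | IsLad β θ n x} := by
  rintro x ⟨hx, Ω, _, w, M, G, h1, h2, h3, h4, h5, h6, h7, h8⟩
    y ⟨hy, Ω', _, w', M', G', h1', h2', h3', h4', h5', h6', h7', h8'⟩ a b ha hb hab
  refine ⟨?_, Ω ⊕ Ω', inferInstance, Sum.elim (fun ω => a * w ω) (fun ω => b * w' ω),
    fun j => Sum.elim (M j) (M' j), fun j => Sum.elim (G j) (G' j), ?_, ?_, ?_, ?_, ?_, ?_, ?_, ?_⟩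
  · refine (norm_add_le _ _).trans ?_
    rw [norm_smul, norm_smul, Real.norm_eq_abs, Real.norm_eq_abs, abs_of_nonneg ha,
      abs_of_nonneg hb]
    nlinarith
  · rintro (ω | ω)
    · exact mul_nonneg ha (h1 ω)
    · exact mul_nonneg hb (h1' ω)
  · simp [Fintype.sum_sum_type, ← Finset.mul_sum, h2, h2', hab]
  · rintro j (ω | ω)
    · exact h3 j ω
    · exact h3' j ω
  · rintro j (ω | ω)
    · exact h4 j ω
    · exact h4' j ω
  · intro j
    rw [sum_mix]
    simp [h5, h5']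
  · intro j
    rw [sum_mix]
    simp [h6, h6']
  · intro j k h
    rw [sum_mix']
    simp [h7 j k h, h7' j k h]
  · intro j k h h'
    rw [sum_mix']
    simp only [Sum.elim_inl, Sum.elim_inr]
    have u1 := mul_le_mul_of_nonneg_left (h8 j k h h') ha
    have u2 := mul_le_mul_of_nonneg_left (h8' j k h h') hb
    have : θ = a * θ + b * θ := by rw [← add_mul, hab, one_mul]
    linarith

lemma IsLad.mid (hβ : ∀ e, ∃ f, ‖f‖ ≤ 1 ∧ ‖e‖ / 2 ≤ β e f) {ε : ℝ} {n : ℕ} {x y : E}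
    (hx : IsLad β (ε / 4) n x) (hy : IsLad β (ε / 4) n y) (hxy : ε ≤ ‖x - y‖) :
    IsLad β (ε / 4) (n + 1) ((1 / 2 : ℝ) • (x + y)) := by
  obtain ⟨hx, Ω, _, w, M, G, h1, h2, h3, h4, h5, h6, h7, h8⟩ := hx
  obtain ⟨hy, Ω', _, w', M', G', h1', h2', h3', h4', h5', h6', h7', h8'⟩ := hy
  obtain ⟨g, hg, hg'⟩ := hβ (x - y)
  have l1 : ∀ {Ω : Type} [Fintype Ω] (w : Ω → ℝ) (M : Ω → E) (g : F),
      ∑ ω, w ω * β (M ω) g = β (∑ ω, w ω • M ω) g := by
    intro Ω _ w M g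
    simp [map_sum, LinearMap.sum_apply]
  have l2 : ∀ {Ω : Type} [Fintype Ω] (w : Ω → ℝ) (x : E) (G : Ω → F),
      ∑ ω, w ω * β x (G ω) = β x (∑ ω, w ω • G ω) := by
    intro Ω _ w x G
    simp [map_sum]
  have l3 : ε / 4 ≤ 1 / 2 * β x g + 1 / 2 * β y (-g) := by
    rw [map_sub, LinearMap.sub_apply] at hg'
    rw [map_neg]
    linarith
  refine ⟨?_, Ω ⊕ Ω', inferInstance, Sum.elim (fun ω => 1 / 2 * w ω) (fun ω => 1 / 2 * w' ω),
    fun j => Nat.casesOn j (Sum.elim (fun _ => x) (fun _ => y)) fun j => Sum.elim (M j) (M' j),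
    fun j => Nat.casesOn j (Sum.elim (fun _ => g) (fun _ => -g)) fun j => Sum.elim (G j) (G' j),
    ?_, ?_, ?_, ?_, ?_, ?_, ?_, ?_⟩
  · rw [norm_smul, Real.norm_eq_abs, abs_of_pos (by norm_num : (0 : ℝ) < 1 / 2)]
    have := norm_add_le x y
    linarith
  · rintro (ω | ω)
    · exact mul_nonneg (by norm_num) (h1 ω)
    · exact mul_nonneg (by norm_num) (h1' ω)
  · simp only [Fintype.sum_sum_type, Sum.elim_inl, Sum.elim_inr, ← Finset.mul_sum, h2, h2']
    norm_num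
  · rintro (_ | j) (ω | ω)
    · exact hx
    · exact hy
    · exact h3 j ω
    · exact h3' j ω
  · rintro (_ | j) (ω | ω)
    · exact hg
    · exact (norm_neg g).le.trans hg
    · exact h4 j ω
    · exact h4' j ω
  · rintro (_ | j)
    · rw [sum_mix]
      simp only [Nat.rec_zero, Sum.elim_inl, Sum.elim_inr, ← Finset.sum_smul, h2, h2', one_smul,
        smul_add]
    · rw [sum_mix]
      simp only [Sum.elim_inl, Sum.elim_inr, h5, h5', smul_add]
  · rintro (_ | j)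
    · rw [sum_mix]
      simp only [Nat.rec_zero, Sum.elim_inl, Sum.elim_inr, ← Finset.sum_smul, h2, h2', one_smul]
      rw [smul_neg, add_neg_cancel]
    · rw [sum_mix]
      simp only [Sum.elim_inl, Sum.elim_inr, h6, h6', smul_zero, add_zero]
  · rintro (_ | j) (_ | k) h
    · omega
    · rw [sum_mix']
      simp only [Nat.rec_zero, Sum.elim_inl, Sum.elim_inr, l2, h6, h6', map_zero, mul_zero,
        add_zero]
    · omega
    · rw [sum_mix']
      simp only [Sum.elim_inl, Sum.elim_inr, h7 j k (by omega), h7' j k (by omega), mul_zero,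
        add_zero]
  · rintro (_ | j) (_ | k) h h'
    · rw [sum_mix']
      simp only [Nat.rec_zero, Sum.elim_inl, Sum.elim_inr, ← Finset.sum_mul, h2, h2', one_mul]
      exact l3
    · omega
    · rw [sum_mix']
      simp only [Nat.rec_zero, Sum.elim_inl, Sum.elim_inr, l1, h5, h5']
      exact l3
    · rw [sum_mix']
      simp only [Sum.elim_inl, Sum.elim_inr]
      have u1 := h8 j k (by omega) (by omega)
      have u2 := h8' j k (by omega) (by omega)
      linarith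

lemma finiteDeriv_of (hβ : ∀ e, ∃ f, ‖f‖ ≤ 1 ∧ ‖e‖ / 2 ≤ β e f) {ε : ℝ}
    (h : ¬ ∀ n, ∃ x, IsLad β (ε / 4) n x) : FiniteDeriv E ε := by
  refine ⟨fun n => {x | IsLad β (ε / 4) n x}, fun x hx => isLad_zero β _ x hx,
    fun n => convex_isLad β _ n, fun n x hx => IsLad.neg β hx,
    fun n x hx y hy hxy => IsLad.mid β hβ hx hy hxy, ?_⟩
  push Not at h
  obtain ⟨n, hn⟩ := h
  exact ⟨n, Set.eq_empty_of_forall_notMem hn⟩

end ladder

variable {X : Type*} [NormedAddCommGroup X] [NormedSpace ℝ X]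

theorem finiteDeriv_self {p : ℝ} (hp : 1 < p) (hX : HasMarkovType X p) (ε : ℝ) (hε : 0 < ε) :
    FiniteDeriv X ε := by
  let β : X →ₗ[ℝ] StrongDual ℝ X →ₗ[ℝ] ℝ :=
    LinearMap.mk₂ ℝ (fun x f => f x) (by simp) (by simp) (by simp) (by simp)
  refine finiteDeriv_of β (fun e => ?_) fun h => no_ladder hp (show 0 < ε / 4 by positivity) hX
    fun n => ?_
  · obtain ⟨g, hg, hg'⟩ := exists_dual_vector'' ℝ e
    refine ⟨g, hg, ?_⟩
    have : β e g = ‖e‖ := hg'
    rw [this]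
    linarith [norm_nonneg e]
  · obtain ⟨x, -, Ω, _, w, M, G, h1, h2, h3, h4, h5, h6, h7, h8⟩ := h n
    refine ⟨Ω, inferInstance, w, M, h1, h2, h3, fun c _ =>
      ⟨fun ω => -(G c ω : X →ₗ[ℝ] ℝ), fun ω v => ?_, fun i j hi hj hn => ?_⟩⟩
    · have := (G c ω).le_opNorm v
      have h' := mul_le_of_le_one_left (norm_nonneg v) (h4 c ω)
      rw [Real.norm_eq_abs] at this
      have h'' := neg_abs_le (G c ω v)
      simp only [LinearMap.neg_apply, ContinuousLinearMap.coe_coe]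
      linarith
    · have u1 : ∑ ω, w ω * G c ω (M i ω) = 0 := h7 i c hi
      have u2 : ε / 4 ≤ ∑ ω, w ω * G c ω (M j ω) := h8 j c hj hn
      simp only [LinearMap.neg_apply, ContinuousLinearMap.coe_coe, mul_neg,
        Finset.sum_neg_distrib, u1]
      linarith

theorem finiteDeriv_dual {p : ℝ} (hp : 1 < p) (hX : HasMarkovType X p) (ε : ℝ) (hε : 0 < ε) :
    FiniteDeriv (StrongDual ℝ X) ε := by
  let β : StrongDual ℝ X →ₗ[ℝ] X →ₗ[ℝ] ℝ :=
    LinearMap.mk₂ ℝ (fun f x => f x) (by simp) (by simp) (by simp) (by simp)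
  refine finiteDeriv_of β (fun e => ?_) fun h => no_ladder hp (show 0 < ε / 4 by positivity) hX
    fun n => ?_
  · rcases eq_or_ne e 0 with rfl | he
    · exact ⟨0, by simp, by simp⟩
    · have : ‖e‖ / 2 < ‖e‖ := half_lt_self (norm_pos_iff.2 he)
      obtain ⟨x, hx, hx'⟩ := e.exists_lt_apply_of_lt_opNorm this
      rw [Real.norm_eq_abs] at hx'
      rcases le_total 0 (e x) with h0 | h0
      · rw [abs_of_nonneg h0] at hx'
        exact ⟨x, hx.le, hx'.le⟩
      · rw [abs_of_nonpos h0] at hx'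
        refine ⟨-x, by rw [norm_neg]; exact hx.le, ?_⟩
        have : β e (-x) = - e x := map_neg e x
        rw [this]
        exact hx'.le
  · obtain ⟨x, -, Ω, _, w, M, G, h1, h2, h3, h4, h5, h6, h7, h8⟩ := h n
    refine ⟨Ω, inferInstance, w, G, h1, h2, h4, fun c hc =>
      ⟨fun ω => (M (c - 1) ω : X →ₗ[ℝ] ℝ), fun ω v => ?_, fun i j hi hj hn => ?_⟩⟩
    · have := (M (c - 1) ω).le_opNorm v
      have h' := mul_le_of_le_one_left (norm_nonneg v) (h3 (c - 1) ω)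
      rw [Real.norm_eq_abs] at this
      have h'' := le_abs_self (M (c - 1) ω v)
      simp only [ContinuousLinearMap.coe_coe]
      linarith
    · have u1 : ∑ ω, w ω * M (c - 1) ω (G j ω) = 0 := h7 (c - 1) j (by omega)
      have u2 : ε / 4 ≤ ∑ ω, w ω * M (c - 1) ω (G i ω) := h8 (c - 1) i (by omega) (by omega)
      simp only [ContinuousLinearMap.coe_coe, u1]
      linarith

theorem exists_uc {p : ℝ} (hp : 1 < p) (hX : HasMarkovType X p) :
    ∃ N : Seminorm ℝ X, IsEquivalentNorm N ∧ IsUniformlyConvex N := by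
  obtain ⟨N, h1, h2⟩ := renorm (finiteDeriv_self hp hX)
  exact ⟨N, ⟨1, 2, one_pos, two_pos, fun x => by rw [one_mul]; exact h1 x⟩,
    fun ε hε _ => h2 ε hε⟩

theorem exists_us {p : ℝ} (hp : 1 < p) (hX : HasMarkovType X p) :
    ∃ N : Seminorm ℝ X, IsEquivalentNorm N ∧ IsUniformlySmooth N := by
  obtain ⟨N', h1, h2⟩ := renorm (finiteDeriv_dual hp hX)
  let B := {f : StrongDual ℝ X // N' f ≤ 1}
  have : Nonempty B := ⟨⟨0, by simp⟩⟩
  have hb : ∀ (x : X) (f : B), |f.1 x| ≤ ‖x‖ := by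
    intro x f
    have := f.1.le_opNorm x
    rw [Real.norm_eq_abs] at this
    exact this.trans (mul_le_of_le_one_left (norm_nonneg x) ((h1 f.1).1.trans f.2))
  have hbdd : ∀ x : X, BddAbove (Set.range fun f : B => |f.1 x|) := fun x =>
    ⟨‖x‖, by rintro _ ⟨f, rfl⟩; exact hb x f⟩
  let N : Seminorm ℝ X := Seminorm.of (fun x => ⨆ f : B, |f.1 x|)
    (fun x y => ciSup_le fun f => by
      rw [map_add]
      exact (abs_add_le _ _).trans (add_le_add (le_ciSup (hbdd x) f) (le_ciSup (hbdd y) f)))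
    (fun c x => by
      simp only [map_smul, smul_eq_mul, abs_mul, Real.norm_eq_abs]
      rw [Real.mul_iSup_of_nonneg (abs_nonneg c)])
  have hN : ∀ x, N x = ⨆ f : B, |f.1 x| := fun x => rfl
  have hle : ∀ (x : X) (f : StrongDual ℝ X), N' f ≤ 1 → |f x| ≤ N x := fun x f hf =>
    le_ciSup (hbdd x) (⟨f, hf⟩ : B)
  have hle' : ∀ (x : X) (f : StrongDual ℝ X), f x ≤ N' f * N x := by
    intro x f
    rcases eq_or_ne f 0 with rfl | hf
    · simp
    · have hpos : 0 < N' f := lt_of_lt_of_le (norm_pos_iff.2 hf) (h1 f).1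
      have := hle x ((N' f)⁻¹ • f) (by
        rw [map_smul_eq_mul, Real.norm_eq_abs, abs_of_pos (inv_pos.2 hpos),
          inv_mul_cancel₀ hpos.ne'])
      rw [_root_.smul_apply, smul_eq_mul, abs_mul, abs_of_pos (inv_pos.2 hpos),
        inv_mul_le_iff₀ hpos] at this
      exact (le_abs_self _).trans this
  refine ⟨N, ⟨1 / 2, 1, by norm_num, one_pos, fun x => ⟨?_, ?_⟩⟩, ?_⟩
  · obtain ⟨g, hg, hg'⟩ := exists_dual_vector'' ℝ x
    have := hle x ((1 / 2 : ℝ) • g) (by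
      rw [map_smul_eq_mul, Real.norm_eq_abs, abs_of_pos (by norm_num : (0 : ℝ) < 1 / 2)]
      linarith [(h1 g).2])
    rw [_root_.smul_apply, smul_eq_mul, hg'] at this
    exact (le_abs_self _).trans this
  · rw [one_mul, hN]
    exact ciSup_le (hb x)
  · have hsign : ∀ (f : B) (z : X), ∃ f' : StrongDual ℝ X, N' f' ≤ 1 ∧ f' z = |f.1 z| := by
      intro f z
      rcases le_total 0 (f.1 z) with h | h
      · exact ⟨f.1, f.2, (abs_of_nonneg h).symm⟩
      · exact ⟨-f.1, by rw [map_neg_eq_map]; exact f.2, by rw [abs_of_nonpos h]; rfl⟩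
    rw [IsUniformlySmooth, Metric.tendsto_nhds]
    intro η hη
    obtain ⟨δ, hδ, hδ'⟩ := h2 η hη
    filter_upwards [Ioo_mem_nhdsGT hδ] with τ hτ
    have hτ0 : 0 < τ := hτ.1
    have hup : smoothnessModulus N τ ≤ τ * η / 2 := by
      refine Real.sSup_le ?_ (by positivity)
      rintro r ⟨x, y, hx, hy, rfl⟩
      have key : ∀ f g : B, |f.1 (x + τ • y)| + |g.1 (x - τ • y)| ≤ 2 + τ * η := by
        intro f g
        obtain ⟨f', hf, ef⟩ := hsign f (x + τ • y)
        obtain ⟨g', hg, eg⟩ := hsign g (x - τ • y)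
        have e : f' (x + τ • y) + g' (x - τ • y) = (f' + g') x + τ * (f' - g') y := by
          simp only [map_add, map_sub, map_smul, smul_eq_mul, _root_.add_apply,
            _root_.sub_apply]
          ring
        rw [← ef, ← eg, e]
        have a1 := hle' x (f' + g')
        have a2 := hle' y (f' - g')
        rw [hx, mul_one] at a1
        rw [hy, mul_one] at a2
        have a3 := map_add_le_add N' f' g'
        have a4 := map_sub_le_add N' f' g'
        rcases le_total η (N' (f' - g')) with h | h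
        · have a5 := hδ' f' g' hf hg h
          rw [map_smul_eq_mul, Real.norm_eq_abs, abs_of_pos (by norm_num : (0 : ℝ) < 1 / 2)] at a5
          have a6 : τ * (f' - g') y ≤ τ * 2 := mul_le_mul_of_nonneg_left (by linarith) hτ0.le
          have a7 : 0 ≤ τ * η := by positivity
          linarith [hτ.2]
        · have a6 : τ * (f' - g') y ≤ τ * η := mul_le_mul_of_nonneg_left (by linarith) hτ0.le
          linarith
      have k2 : N (x + τ • y) + N (x - τ • y) ≤ 2 + τ * η := by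
        rw [hN, hN]
        exact ciSup_add_ciSup_le key
      linarith
    have hlow : 0 ≤ smoothnessModulus N τ := by
      refine Real.sSup_nonneg ?_
      rintro r ⟨x, y, hx, hy, rfl⟩
      have := seminorm_mid_le N (x + τ • y) (x - τ • y)
      rw [show (1 / 2 : ℝ) • (x + τ • y + (x - τ • y)) = x by module, hx] at this
      linarith
    rw [Real.dist_eq, sub_zero, abs_of_nonneg (div_nonneg hlow hτ0.le), div_lt_iff₀ hτ0]
    nlinarith [mul_pos hτ0 hη]

end Vale.Agent.P125
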