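import Vale.Agent.P125.Ultra

/-!
Finite families of increasing labelings that are almost invariant under finitely many increasing
maps (Hahn-Banach in `ℓ¹` plus the ultrafilter `W`, then a matching).
-/

namespace Vale.Agent.P125

open Filter Topology Finset

lemma exists_perm_match {S V : Type*} [Fintype S] [DecidableEq S] [DecidableEq V] (F G : S → V) :
    ∃ σ : Equiv.Perm S, ((univ.filter fun z => G (σ z) ≠ F z).card : ℝ) ≤
      ∑ v ∈ univ.image F, |((univ.filter fun z => F z = v).card : ℝ) -
        (univ.filter fun z => G z = v).card| := by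
  let k : V → ℕ := fun v => min (univ.filter fun z => F z = v).card
    (univ.filter fun z => G z = v).card
  have hf : ∀ v, Nonempty (Fin (k v) ↪ {z // F z = v}) := fun v =>
    Function.Embedding.nonempty_of_card_le (by
      rw [Fintype.card_fin, Fintype.card_subtype]; exact min_le_left _ _)
  have hg : ∀ v, Nonempty (Fin (k v) ↪ {z // G z = v}) := fun v =>
    Function.Embedding.nonempty_of_card_le (by
      rw [Fintype.card_fin, Fintype.card_subtype]; exact min_le_right _ _)
  let T := univ.image F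
  let f : (Σ v : T, Fin (k v)) → S := fun a => ((hf a.1).some a.2).1
  let g : (Σ v : T, Fin (k v)) → S := fun a => ((hg a.1).some a.2).1
  have hFf : ∀ a, F (f a) = a.1 := fun a => ((hf a.1).some a.2).2
  have hGg : ∀ a, G (g a) = a.1 := fun a => ((hg a.1).some a.2).2
  have finj : Function.Injective f := by
    rintro ⟨v, i⟩ ⟨v', i'⟩ h
    have hv : v = v' := Subtype.ext (by
      have h1 := hFf ⟨v, i⟩
      have h2 := hFf ⟨v', i'⟩
      rw [h] at h1
      exact h1.symm.trans h2)
    subst hv
    have : i = i' := (hf v).some.injective (Subtype.ext h)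
    rw [this]
  have ginj : Function.Injective g := by
    rintro ⟨v, i⟩ ⟨v', i'⟩ h
    have hv : v = v' := Subtype.ext (by
      have h1 := hGg ⟨v, i⟩
      have h2 := hGg ⟨v', i'⟩
      rw [h] at h1
      exact h1.symm.trans h2)
    subst hv
    have : i = i' := (hg v).some.injective (Subtype.ext h)
    rw [this]
  obtain ⟨σ, hσ⟩ := Equiv.Perm.exists_extending_pair f g finj ginj
  refine ⟨σ, ?_⟩
  have hsub : (univ.filter fun z => G (σ z) ≠ F z) ⊆ univ \ univ.image f := by
    intro z hz
    simp only [mem_filter, mem_univ, true_and] at hz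
    refine Finset.mem_sdiff.2 ⟨mem_univ _, fun hmem => ?_⟩
    obtain ⟨a, -, rfl⟩ := Finset.mem_image.1 hmem
    apply hz
    rw [hσ, hGg, hFf]
  have h1 := Finset.card_le_card hsub
  rw [Finset.card_sdiff_of_subset (subset_univ _), Finset.card_image_of_injective _ finj,
    card_univ, card_univ, Fintype.card_sigma] at h1
  simp only [Fintype.card_fin] at h1
  rw [Finset.sum_coe_sort T k] at h1
  have h2 : Fintype.card S = ∑ v ∈ T, (univ.filter fun z => F z = v).card :=
    Finset.card_eq_sum_card_image F univ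
  have h3 : ∑ v ∈ T, k v ≤ Fintype.card S := by
    rw [h2]; exact Finset.sum_le_sum fun v _ => min_le_left _ _
  have h4 : ((univ.filter fun z => G (σ z) ≠ F z).card : ℝ) ≤
      (Fintype.card S : ℝ) - ∑ v ∈ T, (k v : ℝ) := by
    have : ((univ.filter fun z => G (σ z) ≠ F z).card : ℝ) ≤
        ((Fintype.card S - ∑ v ∈ T, k v : ℕ) : ℝ) := by exact_mod_cast h1
    rw [Nat.cast_sub h3] at this
    push_cast at this
    exact this
  refine h4.trans ?_
  rw [h2]
  push_cast
  rw [← Finset.sum_sub_distrib]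
  refine Finset.sum_le_sum fun v _ => ?_
  simp only [k]
  rw [Nat.cast_min]
  rcases le_total ((univ.filter fun z => F z = v).card : ℝ) (univ.filter fun z => G z = v).card
    with h | h
  · rw [min_eq_left h]; simp
  · rw [min_eq_right h]; exact le_abs_self _

/-- Dirac vector of `ℓ¹`. -/
noncomputable def dirac1 {V : Type*} [DecidableEq V] (v : V) : lp (fun _ : V => ℝ) 1 :=
  lp.single 1 v (1 : ℝ)

lemma norm_dirac1 {V : Type*} [DecidableEq V] (v : V) : ‖dirac1 v‖ = 1 := by
  unfold dirac1
  rw [lp.norm_single (by norm_num)]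
  simp

lemma dirac1_apply {V : Type*} [DecidableEq V] (v u : V) :
    dirac1 v u = if v = u then 1 else 0 := by
  unfold dirac1
  rw [lp.single_apply, Pi.single_apply]
  simp only [eq_comm]

theorem exists_almost_invariant {α A : Type} [LinearOrder α] [Fintype A] (I : Finset α)
    (h : A → α → α) (hh : ∀ a, StrictMono (h a)) (ε : ℝ) (hε : 0 < ε) :
    ∃ (S : Type) (_ : Fintype S) (_ : DecidableEq S) (_ : Nonempty S) (x : S → α → ℕ)
      (σ : A → Equiv.Perm S) (bad : A → Finset S),
      (∀ z, StrictMonoOn (x z) I) ∧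
      (∀ a z, z ∉ bad a → ∀ i ∈ I, x (σ a z) (h a i) = x z i) ∧
      ∀ a, ((bad a).card : ℝ) ≤ ε * Fintype.card S := by
  classical
  let l := I.sort (· ≤ ·)
  have hl : l.Pairwise (· < ·) := (Finset.sortedLT_sort I).pairwise
  have hl' : ∀ a, (l.map (h a)).Pairwise (· < ·) := fun a =>
    List.pairwise_map.2 (hl.imp fun hij => hh a hij)
  let Δ : (α → ℕ) → lp (fun _ : A × List ℕ => ℝ) 1 := fun x =>
    ∑ a, (dirac1 (a, l.map x) - dirac1 (a, (l.map (h a)).map x))
  have hΔ : ∀ x, ‖Δ x‖ ≤ 2 * Fintype.card A := by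
    intro x
    refine (norm_sum_le _ _).trans ?_
    have : ∀ a ∈ (univ : Finset A),
        ‖dirac1 (a, l.map x) - dirac1 (a, (l.map (h a)).map x)‖ ≤ 2 := fun a _ =>
      (norm_sub_le _ _).trans (by rw [norm_dirac1, norm_dirac1]; norm_num)
    refine (Finset.sum_le_sum this).trans ?_
    simp [mul_comm]
  let 𝒳 : Set (α → ℕ) := {x | StrictMonoOn x I}
  have h0 : (0 : lp (fun _ : A × List ℕ => ℝ) 1) ∈ closure (convexHull ℝ (Δ '' 𝒳)) := by
    by_contra hne
    obtain ⟨Φ, u, hu, hΦ⟩ := geometric_hahn_banach_point_closed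
      (convex_convexHull ℝ (Δ '' 𝒳)).closure isClosed_closure hne
    rw [map_zero] at hu
    have hlim : ∀ a, ∃ c, Tendsto (fun x => Φ (dirac1 (a, l.map x))) (W α) (𝓝 c) := fun a =>
      ultra_exists_tendsto _ _ ‖Φ‖ fun x => by
        have := Φ.le_opNorm (dirac1 (a, l.map x))
        rwa [norm_dirac1, mul_one] at this
    choose c hc using hlim
    have hc' : ∀ a, Tendsto (fun x => Φ (dirac1 (a, (l.map (h a)).map x))) (W α) (𝓝 (c a)) :=
      fun a => W_tendsto hl (hl' a) (by simp) (fun v => Φ (dirac1 (a, v))) _ (hc a)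
    have ht : Tendsto (fun x => Φ (Δ x)) (W α) (𝓝 (∑ a, (c a - c a))) := by
      simp only [Δ, map_sum, map_sub]
      exact tendsto_finsetSum _ fun a _ => (hc a).sub (hc' a)
    simp only [sub_self, Finset.sum_const_zero] at ht
    have : u ≤ 0 := by
      refine ge_of_tendsto ht ?_
      filter_upwards [W_strictMonoOn I] with x hx
      exact (hΦ _ (subset_closure (subset_convexHull ℝ _ ⟨x, hx, rfl⟩))).le
    linarith
  obtain ⟨b, hb, hbε⟩ := Metric.mem_closure_iff.1 h0 (ε / 2) (by positivity)
  rw [dist_comm, dist_zero_right] at hbε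
  obtain ⟨ι, _, w, z, hw0, hw1, hz, hsum⟩ := mem_convexHull_iff_exists_fintype.1 hb
  choose x hx hxz using hz
  obtain ⟨n, hn⟩ := exists_nat_gt (max 1 (Fintype.card ι * (2 * Fintype.card A) / (ε / 2)))
  have hn1 : (1 : ℝ) < n := lt_of_le_of_lt (le_max_left _ _) hn
  have hn2 : Fintype.card ι * (2 * Fintype.card A) ≤ (ε / 2) * n := by
    have := lt_of_le_of_lt (le_max_right _ _) hn
    rw [div_lt_iff₀ (by positivity)] at this
    linarith
  let c : ι → ℕ := fun i => ⌈n * w i⌉₊
  have hc1 : ∀ i, n * w i ≤ c i := fun i => Nat.le_ceil _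
  have hc2 : ∀ i, (c i : ℝ) ≤ n * w i + 1 := fun i =>
    (Nat.ceil_lt_add_one (mul_nonneg (by positivity) (hw0 i))).le
  let S := Σ i : ι, Fin (c i)
  have hcard : (n : ℝ) ≤ Fintype.card S := by
    simp only [S, Fintype.card_sigma, Fintype.card_fin]
    push_cast
    calc (n : ℝ) = ∑ i, n * w i := by rw [← Finset.mul_sum, hw1, mul_one]
      _ ≤ _ := Finset.sum_le_sum fun i _ => hc1 i
  have hne : Nonempty S := by
    rw [← Fintype.card_pos_iff]
    have : (0 : ℝ) < Fintype.card S := by linarith
    exact_mod_cast this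
  let y : S → α → ℕ := fun s => x s.1
  have hb' : ‖∑ s : S, Δ (y s)‖ ≤ ε * Fintype.card S := by
    have e : ∑ s : S, Δ (y s) = (n : ℝ) • b + ∑ i, ((c i : ℝ) - n * w i) • z i := by
      rw [← hsum, Finset.smul_sum, ← Finset.sum_add_distrib]
      simp only [S, y, Fintype.sum_sigma, hxz, Finset.sum_const, card_univ, Fintype.card_fin]
      refine Finset.sum_congr rfl fun i _ => ?_
      rw [smul_smul, ← add_smul, ← Nat.cast_smul_eq_nsmul ℝ]
      congr 1
      ring
    rw [e]
    refine (norm_add_le _ _).trans ?_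
    have h1 : ‖(n : ℝ) • b‖ ≤ n * (ε / 2) := by
      rw [norm_smul, Real.norm_natCast]
      exact mul_le_mul_of_nonneg_left hbε.le (by positivity)
    have h2 : ‖∑ i, ((c i : ℝ) - n * w i) • z i‖ ≤ Fintype.card ι * (2 * Fintype.card A) := by
      refine (norm_sum_le _ _).trans ?_
      have : ∀ i ∈ (univ : Finset ι), ‖((c i : ℝ) - n * w i) • z i‖ ≤ 2 * Fintype.card A := by
        intro i _
        rw [norm_smul, ← hxz i, Real.norm_eq_abs, abs_of_nonneg (by linarith [hc1 i])]
        calc _ ≤ 1 * (2 * (Fintype.card A : ℝ)) :=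
              mul_le_mul (by linarith [hc2 i]) (hΔ _) (norm_nonneg _) zero_le_one
          _ = _ := one_mul _
      refine (Finset.sum_le_sum this).trans ?_
      simp
    nlinarith
  have hmatch : ∀ a, ∃ σ : Equiv.Perm S,
      ((univ.filter fun s => (l.map (h a)).map (y (σ s)) ≠ l.map (y s)).card : ℝ) ≤
        ε * Fintype.card S := by
    intro a
    obtain ⟨σ, hσ⟩ := exists_perm_match (fun s => l.map (y s)) (fun s => (l.map (h a)).map (y s))
    refine ⟨σ, hσ.trans (le_trans ?_ hb')⟩
    have h1 := lp.sum_rpow_le_norm_rpow (p := 1) (by norm_num) (∑ s : S, Δ (y s))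
      ((univ.image fun s => l.map (y s)).image fun v => (a, v))
    rw [Finset.sum_image (fun v _ v' _ e => by simpa using e)] at h1
    simp only [ENNReal.toReal_one, Real.rpow_one, Real.norm_eq_abs] at h1
    refine le_trans (le_of_eq ?_) h1
    refine Finset.sum_congr rfl fun v _ => ?_
    congr 1
    simp only [Δ, lp.coeFn_sum, Finset.sum_apply, lp.coeFn_sub, Pi.sub_apply, dirac1_apply,
      Prod.mk.injEq, Finset.sum_sub_distrib]
    rw [Finset.card_filter, Finset.card_filter]
    push_cast
    congr 1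
    · refine Finset.sum_congr rfl fun s _ => ?_
      rw [Finset.sum_eq_single a] <;> simp +contextual
    · refine Finset.sum_congr rfl fun s _ => ?_
      rw [Finset.sum_eq_single a] <;> simp +contextual
  choose σ hσ using hmatch
  refine ⟨S, inferInstance, inferInstance, hne, y, σ,
    fun a => univ.filter fun s => (l.map (h a)).map (y (σ a s)) ≠ l.map (y s),
    fun s => hx s.1, ?_, hσ⟩
  intro a s hs i hi
  simp only [mem_filter, mem_univ, true_and, not_not, List.map_map] at hs
  exact List.map_inj_left.1 hs i ((Finset.mem_sort _).2 hi)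

end Vale.Agent.P125
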