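import Mathlib

/-!
Ping-pong homeomorphisms of the line whose square is a translation.
-/

namespace Vale.Agent.P125

/-- the periodic set `[a, a+1) + d ℤ`. -/
def DD (d : ℕ) (a x : ℝ) : Prop := ∃ r : ℤ, a + d * r ≤ x ∧ x < a + d * r + 1

/-- the profile on one period -/
noncomputable def kk (d : ℕ) (y : ℝ) : ℝ :=
  if y < 1 then 1 + ((d : ℝ) - 1) * y else d + (y - 1) / ((d : ℝ) - 1)

/-- the basic ping-pong map -/
noncomputable def hh (d : ℕ) (x : ℝ) : ℝ := d * (⌊x / d⌋ : ℤ) + kk d (x - d * (⌊x / d⌋ : ℤ))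

section

variable {d : ℕ} (hd : 2 ≤ d)
include hd

lemma floor_eq_of (n : ℤ) (y : ℝ) (h0 : 0 ≤ y) (h1 : y < d) : ⌊((d : ℝ) * n + y) / d⌋ = n := by
  have hd' : (0 : ℝ) < d := by exact_mod_cast (by omega : 0 < d)
  rw [Int.floor_eq_iff, le_div_iff₀ hd', div_lt_iff₀ hd']
  constructor <;> nlinarith

lemma hh_eq (n : ℤ) (y : ℝ) (h0 : 0 ≤ y) (h1 : y < d) :
    hh d ((d : ℝ) * n + y) = d * n + kk d y := by
  rw [hh, floor_eq_of hd n y h0 h1]
  congr 2
  ring

lemma exists_decomp (x : ℝ) : ∃ (n : ℤ) (y : ℝ), 0 ≤ y ∧ y < d ∧ x = d * n + y := by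
  have hd' : (0 : ℝ) < d := by exact_mod_cast (by omega : 0 < d)
  refine ⟨⌊x / d⌋, x - d * (⌊x / d⌋ : ℤ), ?_, ?_, by ring⟩
  · have := Int.floor_le (x / d)
    rw [le_div_iff₀ hd'] at this
    linarith
  · have := Int.lt_floor_add_one (x / d)
    rw [div_lt_iff₀ hd'] at this
    linarith

lemma DD_zero_iff (n : ℤ) (y : ℝ) (h0 : 0 ≤ y) (h1 : y < d) :
    DD d 0 ((d : ℝ) * n + y) ↔ y < 1 := by
  have hd' : (2 : ℝ) ≤ d := by exact_mod_cast hd
  constructor
  · rintro ⟨r, hr1, hr2⟩
    have e := floor_eq_of hd r ((d : ℝ) * n + y - d * r) (by linarith) (by linarith)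
    have e' := floor_eq_of hd n y h0 h1
    have : (d : ℝ) * r + ((d : ℝ) * n + y - d * r) = d * n + y := by ring
    rw [this, e'] at e
    subst e
    linarith
  · intro h
    exact ⟨n, by linarith, by linarith⟩

lemma kk_strictMono : StrictMono (kk d) := by
  have hd' : (2 : ℝ) ≤ d := by exact_mod_cast hd
  have hc : (0 : ℝ) < (d : ℝ) - 1 := by linarith
  intro y y' h
  unfold kk
  split_ifs with h1 h2 h2
  · nlinarith
  · have : 0 ≤ (y' - 1) / ((d : ℝ) - 1) := div_nonneg (by linarith) hc.le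
    nlinarith
  · linarith
  · have := div_lt_div_of_pos_right (show y - 1 < y' - 1 by linarith) hc
    linarith

lemma kk_bounds (y : ℝ) (h0 : 0 ≤ y) (h1 : y < d) : 1 ≤ kk d y ∧ kk d y < d + 1 := by
  have hd' : (2 : ℝ) ≤ d := by exact_mod_cast hd
  have hc : (0 : ℝ) < (d : ℝ) - 1 := by linarith
  unfold kk
  split_ifs with h
  · constructor <;> nlinarith
  · have a1 : 0 ≤ (y - 1) / ((d : ℝ) - 1) := div_nonneg (by linarith) hc.le
    have a2 : (y - 1) / ((d : ℝ) - 1) < 1 := by rw [div_lt_one hc]; linarith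
    constructor <;> linarith

lemma hh_strictMono : StrictMono (hh d) := by
  have hd' : (2 : ℝ) ≤ d := by exact_mod_cast hd
  intro x x' h
  obtain ⟨n, y, h0, h1, rfl⟩ := exists_decomp hd x
  obtain ⟨n', y', h0', h1', rfl⟩ := exists_decomp hd x'
  rw [hh_eq hd n y h0 h1, hh_eq hd n' y' h0' h1']
  rcases lt_trichotomy n n' with hn | rfl | hn
  · have : (n : ℝ) + 1 ≤ n' := by exact_mod_cast hn
    have := kk_bounds hd y h0 h1
    have := kk_bounds hd y' h0' h1'
    nlinarith
  · have := kk_strictMono hd (show y < y' by linarith)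
    linarith
  · have : (n' : ℝ) + 1 ≤ n := by exact_mod_cast hn
    nlinarith

lemma hh_hh_and (x : ℝ) : hh d (hh d x) = x + d ∧ (DD d 0 (hh d x) ↔ ¬ DD d 0 x) := by
  have hd' : (2 : ℝ) ≤ d := by exact_mod_cast hd
  have hc : (0 : ℝ) < (d : ℝ) - 1 := by linarith
  obtain ⟨n, y, h0, h1, rfl⟩ := exists_decomp hd x
  rw [hh_eq hd n y h0 h1, DD_zero_iff hd n y h0 h1]
  by_cases h : y < 1
  · have e : kk d y = 1 + ((d : ℝ) - 1) * y := if_pos h
    have b0 : 0 ≤ 1 + ((d : ℝ) - 1) * y := by nlinarith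
    have b1 : 1 + ((d : ℝ) - 1) * y < d := by nlinarith
    have b2 : ¬ (1 + ((d : ℝ) - 1) * y < 1) := by nlinarith
    rw [e, hh_eq hd n _ b0 b1, DD_zero_iff hd n _ b0 b1]
    refine ⟨?_, by tauto⟩
    rw [kk, if_neg b2]
    field_simp
    ring
  · have e : (d : ℝ) * n + kk d y = d * ((n + 1 : ℤ) : ℝ) + (y - 1) / ((d : ℝ) - 1) := by
      rw [kk, if_neg h]; push_cast; ring
    have b0 : 0 ≤ (y - 1) / ((d : ℝ) - 1) := div_nonneg (by linarith) hc.le
    have b2 : (y - 1) / ((d : ℝ) - 1) < 1 := by rw [div_lt_one hc]; linarith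
    have b1 : (y - 1) / ((d : ℝ) - 1) < d := by linarith
    rw [e, hh_eq hd _ _ b0 b1, DD_zero_iff hd _ _ b0 b1]
    refine ⟨?_, by tauto⟩
    rw [kk, if_pos b2]
    push_cast
    field_simp
    ring

end

/-- the ping-pong map attached to the letter `a`. -/
noncomputable def ha (d : ℕ) (a : ℝ) (x : ℝ) : ℝ := hh d (x - a) + a

/-- the move: `ha` for `b = false`, its inverse for `b = true`. -/
noncomputable def mv (d : ℕ) (a : ℝ) (b : Bool) (x : ℝ) : ℝ :=
  if b then ha d a x - d else ha d a x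

lemma DD_iff_zero (d : ℕ) (a x : ℝ) : DD d a x ↔ DD d 0 (x - a) := by
  refine exists_congr fun r => ?_
  constructor <;> rintro ⟨h1, h2⟩ <;> constructor <;> linarith

lemma DD_add (d : ℕ) (a x : ℝ) (m : ℤ) : DD d a (x + d * m) ↔ DD d a x := by
  constructor
  · rintro ⟨r, h1, h2⟩
    exact ⟨r - m, by push_cast; linarith, by push_cast; linarith⟩
  · rintro ⟨r, h1, h2⟩
    exact ⟨r + m, by push_cast; linarith, by push_cast; linarith⟩

section

variable {d : ℕ} (hd : 2 ≤ d)
include hd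

lemma ha_strictMono (a : ℝ) : StrictMono (ha d a) := fun x y h => by
  have := hh_strictMono hd (show x - a < y - a by linarith)
  unfold ha; linarith

lemma ha_ha (a x : ℝ) : ha d a (ha d a x) = x + d := by
  unfold ha
  rw [add_sub_cancel_right, (hh_hh_and hd _).1]
  ring

lemma DD_ha (a x : ℝ) : DD d a (ha d a x) ↔ ¬ DD d a x := by
  rw [DD_iff_zero, DD_iff_zero d a x, ha, add_sub_cancel_right]
  exact (hh_hh_and hd _).2

lemma ha_add (a x : ℝ) (m : ℤ) : ha d a (x + d * m) = ha d a x + d * m := by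
  obtain ⟨n, y, h0, h1, e⟩ := exists_decomp hd (x - a)
  unfold ha
  have : x + d * m - a = d * ((n + m : ℤ) : ℝ) + y := by push_cast; linarith
  rw [this, e, hh_eq hd _ _ h0 h1, hh_eq hd _ _ h0 h1]
  push_cast
  ring

lemma lt_ha (a x : ℝ) : x < ha d a x := by
  have hd' : (2 : ℝ) ≤ d := by exact_mod_cast hd
  by_contra h
  have h := not_lt.1 h
  have := (ha_strictMono hd a).monotone h
  rw [ha_ha hd] at this
  linarith

lemma ha_lt (a x : ℝ) : ha d a x < x + d := by
  rw [← ha_ha hd a x]; exact lt_ha hd a _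

lemma ha_mv_true (a x : ℝ) : ha d a (mv d a true x) = x := by
  have := ha_add hd a (ha d a x) (-1)
  simp only [mv, if_true]
  push_cast at this
  rw [show ha d a x - d = ha d a x + d * (-1) by ring, this, ha_ha hd]
  ring

lemma mv_mv (a x : ℝ) (b : Bool) : mv d a b (mv d a (!b) x) = x := by
  cases b
  · exact ha_mv_true hd a x
  · simp [mv, ha_ha hd]

lemma DD_mv (a x : ℝ) (b : Bool) : DD d a (mv d a b x) ↔ ¬ DD d a x := by
  cases b
  · exact DD_ha hd a x
  · have := DD_add d a (ha d a x) (-1)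
    push_cast at this
    simp only [mv, if_true]
    rw [show ha d a x - d = ha d a x + d * (-1) by ring, this, DD_ha hd]

lemma mv_add (a x : ℝ) (b : Bool) (m : ℤ) : mv d a b (x + d * m) = mv d a b x + d * m := by
  cases b <;> simp only [mv, ha_add hd, if_true, Bool.false_eq_true, if_false]
  ring

lemma mv_bounds (a x : ℝ) (b : Bool) : x - d ≤ mv d a b x ∧ mv d a b x ≤ x + d := by
  have h1 := lt_ha hd a x
  have h2 := ha_lt hd a x
  have hd' : (2 : ℝ) ≤ d := by exact_mod_cast hd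
  cases b <;> simp only [mv, if_true, Bool.false_eq_true, if_false] <;> constructor <;> linarith

omit hd in
lemma DD_disjoint {a a' : Fin d} {x : ℝ} (h : DD d a x) (h' : DD d a' x) : a = a' := by
  obtain ⟨r, h1, h2⟩ := h
  obtain ⟨r', h1', h2'⟩ := h'
  have e1 : ((a : ℕ) : ℤ) + d * r < (a' : ℕ) + d * r' + 1 := by
    have : ((a : ℕ) : ℝ) + d * r < (a' : ℕ) + d * r' + 1 := by linarith
    exact_mod_cast this
  have e2 : ((a' : ℕ) : ℤ) + d * r' < (a : ℕ) + d * r + 1 := by
    have : ((a' : ℕ) : ℝ) + d * r' < (a : ℕ) + d * r + 1 := by linarith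
    exact_mod_cast this
  have e : ((a : ℕ) : ℤ) + d * r = (a' : ℕ) + d * r' := by omega
  have m1 : (((a : ℕ) : ℤ) + d * r) % d = (a : ℕ) := by
    rw [Int.add_mul_emod_self_left]
    exact Int.emod_eq_of_lt (by omega) (by exact_mod_cast a.2)
  have m2 : (((a' : ℕ) : ℤ) + d * r') % d = (a' : ℕ) := by
    rw [Int.add_mul_emod_self_left]
    exact Int.emod_eq_of_lt (by omega) (by exact_mod_cast a'.2)
  rw [e, m2] at m1
  exact Fin.ext (by exact_mod_cast m1.symm)

lemma not_DD_succ (a : ℝ) : ¬ DD d a (a + 1) := by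
  have hd' : (2 : ℝ) ≤ d := by exact_mod_cast hd
  rw [DD_iff_zero, show a + 1 - a = (d : ℝ) * ((0 : ℤ) : ℝ) + 1 by simp,
    DD_zero_iff hd 0 1 zero_le_one (by linarith)]
  exact lt_irrefl _

lemma sum_indicator_DD (a : Fin d) (s : ℕ) (x : ℝ) (h0 : 0 ≤ x) (h1 : x < d * s)
    [Decidable (DD d a x)] :
    ∑ r ∈ Finset.range s, ((if x < (a : ℕ) + (d : ℝ) * r then (1 : ℝ) else 0) -
      (if x < (a : ℕ) + (d : ℝ) * r + 1 then 1 else 0)) = - if DD d a x then 1 else 0 := by
  have hd' : (2 : ℝ) ≤ d := by exact_mod_cast hd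
  have ha1 : ((a : ℕ) : ℝ) + 1 ≤ d := by exact_mod_cast a.2
  have ha0 : (0 : ℝ) ≤ (a : ℕ) := by positivity
  by_cases h : DD d a x
  · rw [if_pos h]
    obtain ⟨r, hr1, hr2⟩ := h
    have r0 : 0 ≤ r := by
      have : (-1 : ℝ) < r := by nlinarith
      have : (-1 : ℤ) < r := by exact_mod_cast this
      omega
    have r1 : r < s := by
      have : (r : ℝ) < s := by nlinarith
      exact_mod_cast this
    lift r to ℕ using r0
    rw [Finset.sum_eq_single r]
    · push_cast at hr1 hr2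
      rw [if_neg (by linarith), if_pos (by linarith)]
      simp
    · intro r' _ hne
      push_cast at hr1 hr2
      rcases lt_or_gt_of_ne hne with hlt | hlt
      · have : (r' : ℝ) + 1 ≤ r := by exact_mod_cast hlt
        rw [if_neg (by nlinarith), if_neg (by nlinarith), sub_self]
      · have : (r : ℝ) + 1 ≤ r' := by exact_mod_cast hlt
        rw [if_pos (by nlinarith), if_pos (by nlinarith), sub_self]
    · intro hr
      exact absurd (Finset.mem_range.2 (by exact_mod_cast r1)) hr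
  · rw [if_neg h, neg_zero]
    refine Finset.sum_eq_zero fun r _ => ?_
    by_cases h2 : x < (a : ℕ) + (d : ℝ) * r
    · rw [if_pos h2, if_pos (by linarith), sub_self]
    · rw [if_neg h2, if_neg, sub_self]
      intro h3
      exact h ⟨r, by push_cast; linarith, by push_cast; linarith⟩

end

/-- all points of the trajectory satisfy: being in `DD` of the next letter is equivalent to
`side = true`. -/
def Track (d : ℕ) (side : Bool) : Bool → ℝ → List (Fin d) → Prop
  | _, _, [] => True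
  | b, x, a :: w => (DD d a x ↔ side = true) ∧ Track d side (!b) (mv d a b x) w

/-- points of the trajectory. -/
noncomputable def trajPts (d : ℕ) : Bool → ℝ → List (Fin d) → List ℝ
  | _, x, [] => [x]
  | b, x, a :: w => x :: trajPts d (!b) (mv d a b x) w

lemma self_mem_trajPts (d : ℕ) (b : Bool) (x : ℝ) (w : List (Fin d)) : x ∈ trajPts d b x w := by
  cases w <;> simp [trajPts]

section

variable {d : ℕ} (hd : 2 ≤ d)
include hd

lemma Track.add {side : Bool} {w : List (Fin d)} {b : Bool} {x : ℝ} (h : Track d side b x w)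
    (m : ℤ) : Track d side b (x + d * m) w := by
  induction w generalizing b x with
  | nil => trivial
  | cons a w ih =>
    refine ⟨by rw [DD_add]; exact h.1, ?_⟩
    rw [mv_add hd]
    exact ih h.2

lemma trajPts_bounds {w : List (Fin d)} {b : Bool} {x y : ℝ} (h : y ∈ trajPts d b x w) :
    x - d * w.length ≤ y ∧ y ≤ x + d * w.length := by
  have hd' : (2 : ℝ) ≤ d := by exact_mod_cast hd
  induction w generalizing b x with
  | nil => simp only [trajPts, List.mem_singleton] at h; simp [h]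
  | cons a w ih =>
    simp only [trajPts, List.mem_cons] at h
    have hw : (0 : ℝ) ≤ w.length := by positivity
    simp only [List.length_cons]
    push_cast
    rcases h with rfl | h
    · constructor <;> nlinarith
    · obtain ⟨u1, u2⟩ := ih h
      obtain ⟨u3, u4⟩ := mv_bounds hd ((a : ℕ) : ℝ) x b
      constructor <;> linarith

lemma exists_peak (w : List (Fin d)) (a : Fin d) (hw : (a :: w).Nodup) (b : Bool) :
    ∃ x, Track d true b x (a :: w) := by
  induction w generalizing a b with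
  | nil => exact ⟨a, ⟨by simpa using ⟨0, by simp, by simp⟩, trivial⟩⟩
  | cons a' w ih =>
    obtain ⟨x', hx'⟩ := ih a' (List.nodup_cons.1 hw).2 (!b)
    have h1 : DD d a' x' := hx'.1.2 rfl
    have h2 : ¬ DD d a x' := fun h => by
      have := DD_disjoint h h1
      exact (List.nodup_cons.1 hw).1 (by simp [this])
    refine ⟨mv d a (!b) x', ⟨by simpa using (DD_mv hd a x' (!b)).2 h2, ?_⟩⟩
    rw [mv_mv hd]
    exact hx'

lemma track_valley (w : List (Fin d)) (a : Fin d) (hw : (a :: w).Nodup) (b : Bool) (x : ℝ)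
    (hx : ¬ DD d a x) : Track d false b x (a :: w) := by
  induction w generalizing a b x with
  | nil => exact ⟨by simpa using hx, trivial⟩
  | cons a' w ih =>
    refine ⟨by simpa using hx, ih a' (List.nodup_cons.1 hw).2 _ _ fun h => ?_⟩
    have := DD_disjoint ((DD_mv hd a x b).2 hx) h
    exact (List.nodup_cons.1 hw).1 (by simp [this])

/-- interlaced valley and peak in a prescribed window. -/
lemma exists_valley_peak (w : List (Fin d)) (hw : w.Nodup) (hne : w ≠ []) (b : Bool) (m : ℕ) :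
    ∃ v u : ℝ, Track d false b v w ∧ Track d true b u w ∧ (d : ℝ) * m ≤ v ∧ v ≤ d * m + d ∧
      v < u ∧ u < v + d := by
  obtain ⟨a, w, rfl⟩ := List.exists_cons_of_ne_nil hne
  have ha1 : ((a : ℕ) : ℝ) + 1 ≤ d := by exact_mod_cast a.2
  have ha0 : (0 : ℝ) ≤ (a : ℕ) := by positivity
  have hv : ¬ DD d a (((a : ℕ) : ℝ) + 1 + d * (m : ℤ)) := by
    rw [DD_add]; exact not_DD_succ hd _
  obtain ⟨u, hu⟩ := exists_peak hd w a hw b
  obtain ⟨n, y, h0, h1, e⟩ := exists_decomp hd (u - (((a : ℕ) : ℝ) + 1 + d * (m : ℤ)))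
  have hu' := hu.add hd (-n)
  refine ⟨_, _, track_valley hd w a hw b _ hv, hu', by push_cast; linarith,
    by push_cast; linarith, ?_, by push_cast at *; linarith⟩
  have hle : ((a : ℕ) : ℝ) + 1 + d * (m : ℤ) ≤ u + d * ((-n : ℤ) : ℝ) := by
    push_cast at *; linarith
  refine lt_of_le_of_ne hle fun e' => hv ?_
  rw [e']
  exact hu'.1.2 rfl

end

end Vale.Agent.P125
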