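import Vale.Agent.P125.Spread
import Vale.Agent.P125.Match
import Vale.Agent.P125.PingPong

/-!
A spreading invariant family with a ladder cannot satisfy the form-type inequality for `p > 1`.
-/

namespace Vale.Agent.P125

open Filter Topology Finset Finsupp

/-- alternating vector with `s` periods -/
noncomputable def alt (s : ℕ) : ℕ →₀ ℝ :=
  ∑ r ∈ range s, (single (2 * r) 1 - single (2 * r + 1) 1)

lemma mapDomain_alt {β : Type*} (g : ℕ → β) (s : ℕ) :
    mapDomain g (alt s) = ∑ r ∈ range s, (single (g (2 * r)) 1 - single (g (2 * r + 1)) 1) := by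
  rw [alt, mapDomain_finsetSum]
  refine Finset.sum_congr rfl fun r _ => ?_
  rw [mapDomain_sub, mapDomain_single, mapDomain_single]

lemma lt_of_mem_support_alt {s j : ℕ} (h : j ∈ (alt s).support) : j < 2 * s := by
  by_contra hj
  apply Finsupp.mem_support_iff.1 h
  rw [alt, Finsupp.finsetSum_apply]
  refine Finset.sum_eq_zero fun r hr => ?_
  have := mem_range.1 hr
  rw [Finsupp.sub_apply, single_eq_of_ne (by omega), single_eq_of_ne (by omega), sub_self]

lemma alt_double (s : ℕ) : alt (2 * s) = alt s + mapDomain (· + 2 * s) (alt s) := by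
  rw [mapDomain_alt, alt, alt, two_mul s, Finset.sum_range_add]
  congr 1
  refine Finset.sum_congr rfl fun r _ => ?_
  rw [show 2 * (s + r) = 2 * r + (s + s) by ring, show 2 * r + (s + s) + 1 = 2 * r + 1 + (s + s) by
    ring]

/-- sum of the coordinates beyond `c`. -/
noncomputable def tail (c : ℕ) : (ℕ →₀ ℝ) →ₗ[ℝ] ℝ :=
  Finsupp.linearCombination ℝ (fun m => if c < m then (1 : ℝ) else 0)

lemma tail_single (c m : ℕ) : tail c (single m 1) = if c < m then 1 else 0 := by
  simp [tail]

lemma single_count (c : ℕ → ℕ) (n m : ℕ) (hc : ∀ i j, i ≤ j → j < n → c i ≤ c j) :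
    (single ((range n).filter (fun i => c i < m)).card 1 : ℕ →₀ ℝ) =
      single 0 1 + ∑ i ∈ range n, (if c i < m then (1 : ℝ) else 0) •
        (single (i + 1) (1 : ℝ) - single i 1) := by
  induction n with
  | zero => simp
  | succ n ih =>
    have ih := ih fun i j hij hj => hc i j hij (by omega)
    rw [Finset.sum_range_succ, ← add_assoc, ← ih, Finset.range_add_one, Finset.filter_insert]
    by_cases h : c n < m
    · have : (range n).filter (fun i => c i < m) = range n :=
        Finset.filter_true_of_mem fun i hi =>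
          lt_of_le_of_lt (hc i n (mem_range.1 hi).le (by omega)) h
      rw [if_pos h, if_pos h, this, Finset.card_insert_of_notMem (by simp), card_range]
      simp
    · rw [if_neg h, if_neg h]
      simp

lemma collapse_identity (c : ℕ → ℕ) (n : ℕ) (hc : ∀ i j, i ≤ j → j < n → c i ≤ c j)
    (a : ℕ →₀ ℝ) :
    mapDomain (fun m => ((range n).filter (fun i => c i < m)).card) a -
      mapDomain (fun m => if c 0 < m then n else 0) a =
      ∑ i ∈ range n, (tail (c i) a - tail (c 0) a) • (single (i + 1) (1 : ℝ) - single i 1) := by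
  induction a using Finsupp.induction_linear with
  | zero => simp
  | add f g hf hg =>
    simp only [mapDomain_add, map_add]
    rw [add_sub_add_comm, hf, hg, ← Finset.sum_add_distrib]
    refine Finset.sum_congr rfl fun i _ => ?_
    rw [← add_smul]
    congr 1
    ring
  | single m r =>
    have e : (single m r : ℕ →₀ ℝ) = r • single m 1 := by simp
    rw [e, mapDomain_smul, mapDomain_smul, mapDomain_single, mapDomain_single, ← smul_sub,
      single_count c n m hc]
    simp only [map_smul, tail_single, smul_eq_mul, ← mul_sub, mul_smul, ← Finset.smul_sum]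
    congr 1
    simp only [sub_smul, Finset.sum_sub_distrib]
    have := Finset.sum_range_sub (fun i => (single i (1 : ℝ) : ℕ →₀ ℝ)) n
    rw [← Finset.smul_sum (r := (if c 0 < m then (1 : ℝ) else 0)), this]
    split_ifs
    · simp only [one_smul]; abel
    · simp

lemma sum_range_odd {M : Type*} [AddCommMonoid M] (F : ℕ → M) (s : ℕ) :
    ∑ i ∈ range (2 * s + 1), F i = F 0 + ∑ r ∈ range s, (F (2 * r + 1) + F (2 * r + 2)) := by
  induction s with
  | zero => simp
  | succ s ih =>
    rw [show 2 * (s + 1) + 1 = 2 * s + 1 + 1 + 1 by ring, Finset.sum_range_succ,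
      Finset.sum_range_succ _ (2 * s + 1), ih, Finset.sum_range_succ]
    simp only [add_assoc]

lemma le_of_forall_le_add_div {a b D : ℝ} (h : ∀ M : ℕ, 0 < M → a ≤ b + D / M) : a ≤ b := by
  have : Tendsto (fun M : ℕ => b + D / M) atTop (𝓝 (b + 0)) :=
    (tendsto_const_div_atTop_nhds_zero_nat D).const_add b
  rw [add_zero] at this
  refine ge_of_tendsto this ?_
  filter_upwards [eventually_gt_atTop 0] with M hM using h M hM

namespace Spr

variable {C p θ : ℝ} (S : Spr C p θ)

/-- limiting norm of the alternating vector -/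
noncomputable def phi (s : ℕ) : ℝ := ⨅ M : ℕ, S.N _ (blockAvg (M + 1) (alt s))

lemma phi_le (s M : ℕ) (hM : 0 < M) : S.phi s ≤ S.N _ (blockAvg M (alt s)) := by
  obtain ⟨M, rfl⟩ := Nat.exists_eq_add_one_of_ne_zero hM.ne'
  exact ciInf_le ⟨0, by rintro _ ⟨M, rfl⟩; exact apply_nonneg _ _⟩ M

lemma le_phi (s : ℕ) : θ ≤ S.phi (s + 1) := by
  refine le_ciInf fun L => ?_
  obtain ⟨D, hD⟩ := S.collapse_block (L + 1) (Nat.succ_pos L) (fun j : ℕ => min j 1)
    (fun i j h => min_le_min_right 1 h) (alt (s + 1))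
  have e : mapDomain (fun j : ℕ => min j 1) (alt (s + 1)) = single 0 1 - single 1 1 := by
    rw [mapDomain_alt, Finset.sum_range_succ', Finset.sum_eq_zero]
    · simp
    · intro r _
      rw [min_eq_right (by omega), min_eq_right (by omega), sub_self]
  rw [e] at hD
  exact le_of_forall_le_add_div fun M hM => (S.lad M hM).trans (hD M hM)

lemma exists_block (hθ : 0 < θ) (s : ℕ) :
    ∃ L, 0 < L ∧ S.N _ (blockAvg L (alt (2 * (s + 1)))) ≤ 4 * S.phi (s + 1) := by
  have h0 := S.le_phi s
  have : S.phi (s + 1) < 2 * S.phi (s + 1) := by linarith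
  obtain ⟨L, hL⟩ := exists_lt_of_ciInf_lt this
  refine ⟨L + 1, Nat.succ_pos L, ?_⟩
  rw [alt_double, map_add]
  refine (map_add_le_add _ _ _).trans ?_
  rw [S.inv_block (L + 1) (· + 2 * (s + 1)) _ (fun i _ j _ h => Nat.add_lt_add_right h _)]
  linarith

lemma lower_bound (L : ℕ) (hL : 0 < L) (s : ℕ) (c : ℕ → ℕ)
    (hc : ∀ i j, i ≤ j → j < 2 * s + 1 → c i ≤ c j) (a : ℕ →₀ ℝ) (t v : ℝ) (ht : 0 ≤ t)
    (ha : ∀ i < 2 * s + 1, tail (c i) a = v - if i % 2 = 1 then t else 0) :
    t * S.phi s ≤ 2 * S.N _ (blockAvg L a) := by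
  obtain ⟨D1, h1⟩ := S.collapse_block L hL
    (fun m => ((range (2 * s + 1)).filter (fun i => c i < m)).card)
    (fun m m' h => Finset.card_le_card fun i hi => by
      simp only [mem_filter] at hi ⊢
      exact ⟨hi.1, lt_of_lt_of_le hi.2 h⟩) a
  obtain ⟨D2, h2⟩ := S.collapse_block L hL (fun m => if c 0 < m then 2 * s + 1 else 0)
    (fun m m' h => by
      dsimp only
      split_ifs with u1 u2 <;> omega) a
  have e := collapse_identity c (2 * s + 1) hc a
  have e' : ∑ i ∈ range (2 * s + 1), (tail (c i) a - tail (c 0) a) •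
      (single (i + 1) (1 : ℝ) - single i 1) = t • mapDomain (· + 1) (alt s) := by
    rw [sum_range_odd, mapDomain_alt, Finset.smul_sum, sub_self, zero_smul, zero_add]
    refine Finset.sum_congr rfl fun r hr => ?_
    have := mem_range.1 hr
    rw [ha 0 (by omega), ha (2 * r + 1) (by omega), ha (2 * r + 2) (by omega),
      if_neg (show ¬ (0 % 2 = 1) by omega), if_pos (show (2 * r + 1) % 2 = 1 by omega),
      if_neg (show ¬ ((2 * r + 2) % 2 = 1) by omega)]
    simp only [sub_zero, sub_self, zero_smul, add_zero, sub_sub_cancel_left, neg_smul, smul_sub]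
    abel
  rw [e'] at e
  refine le_of_forall_le_add_div (D := D1 + D2) fun M hM => ?_
  have h3 : S.N _ (blockAvg M (t • mapDomain (· + 1) (alt s))) =
      t * S.N _ (blockAvg M (alt s)) := by
    rw [map_smul, map_smul_eq_mul, Real.norm_eq_abs, abs_of_nonneg ht,
      S.inv_block M (· + 1) _ (fun i _ j _ h => Nat.add_lt_add_right h _)]
  have h4 := mul_le_mul_of_nonneg_left (S.phi_le s M hM) ht
  rw [← h3, ← e, map_sub] at h4
  have h5 := h4.trans (map_sub_le_add _ _ _)
  have := h1 M hM
  have := h2 M hM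
  rw [add_div]
  linarith

end Spr

section good

variable {Z A : Type*}

/-- the walk avoids the bad sets -/
def GoodW (ρ : A → Z → Z) (bad : A → Finset Z) : Z → List A → Prop
  | _, [] => True
  | z, a :: w => z ∉ bad a ∧ GoodW ρ bad (ρ a z) w

lemma card_not_good (ρ : A → Z → Z) (hρ : ∀ a z, ρ a (ρ a z) = z)
    (bad : A → Finset Z) (B : ℝ) (hB : ∀ a, ((bad a).card : ℝ) ≤ B) (w : List A)
    (T : Finset Z) (hT : ∀ z ∈ T, ¬ GoodW ρ bad z w) : (T.card : ℝ) ≤ w.length * B := by
  classical
  induction w generalizing T with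
  | nil =>
    have : T = ∅ := Finset.eq_empty_of_forall_notMem fun z hz => hT z hz trivial
    simp [this]
  | cons a w ih =>
    have h4 := ih ((T \ bad a).image (ρ a)) (by
      intro z hz
      obtain ⟨z', hz', rfl⟩ := mem_image.1 hz
      obtain ⟨u1, u2⟩ := Finset.mem_sdiff.1 hz'
      exact fun h => hT z' u1 ⟨u2, h⟩)
    rw [Finset.card_image_of_injective _ (Function.LeftInverse.injective (hρ a))] at h4
    have h1 : T.card ≤ (T \ bad a).card + (bad a).card := Finset.card_le_card_sdiff_add_card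
    have h2 : (T.card : ℝ) ≤ (T \ bad a).card + (bad a).card := by exact_mod_cast h1
    have h3 := hB a
    simp only [List.length_cons]
    push_cast
    linarith

end good

/-- number of inverse moves -/
def valB : Bool → ℕ → ℝ
  | _, 0 => 0
  | b, n + 1 => (if b then 1 else 0) + valB (!b) n

/-- jump points of the letter `a` -/
def jp (d a j : ℕ) : ℕ := a + d * (j / 2) + j % 2

lemma jp_strictMono {d : ℕ} (hd : 2 ≤ d) (a : ℕ) : StrictMono (jp d a) := by
  refine strictMono_nat_of_lt_succ fun j => ?_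
  unfold jp
  rcases Nat.mod_two_eq_zero_or_one j with h | h
  · rw [show (j + 1) / 2 = j / 2 by omega, show (j + 1) % 2 = 1 by omega, h]
    omega
  · rw [show (j + 1) / 2 = j / 2 + 1 by omega, show (j + 1) % 2 = 0 by omega, h, mul_add]
    omega

lemma card_injective_ge (t : ℕ) (ht : 1 ≤ t)
    [DecidablePred fun w : Fin t → Fin (2 * t ^ 2) => Function.Injective w] :
    ((2 * t ^ 2 : ℕ) : ℝ) ^ t / 2 ≤
      (univ.filter fun w : Fin t → Fin (2 * t ^ 2) => Function.Injective w).card := by
  classical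
  have e : (univ.filter fun w : Fin t → Fin (2 * t ^ 2) => Function.Injective w).card =
      (2 * t ^ 2).descFactorial t := by
    rw [← Fintype.card_subtype,
      Fintype.card_congr (Equiv.subtypeInjectiveEquivEmbedding _ _), Fintype.card_embedding_eq]
    simp
  rw [e]
  have h1 := Nat.pow_sub_le_descFactorial (2 * t ^ 2) t
  have hle : t ≤ 2 * t ^ 2 + 1 := by nlinarith
  have h2 : (((2 * t ^ 2 + 1 - t : ℕ) : ℝ)) ^ t ≤ ((2 * t ^ 2).descFactorial t : ℝ) := by
    exact_mod_cast h1
  refine le_trans ?_ h2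
  rw [Nat.cast_sub hle]
  push_cast
  have ht' : (1 : ℝ) ≤ t := by exact_mod_cast ht
  have hb := one_add_mul_le_pow (a := -(1 / (2 * (t : ℝ)))) (by
    have : 1 / (2 * (t : ℝ)) ≤ 1 := by rw [div_le_one (by positivity)]; linarith
    linarith) t
  have e1 : 1 + (t : ℝ) * -(1 / (2 * (t : ℝ))) = 1 / 2 := by field_simp; ring
  rw [e1] at hb
  have hpos : 0 ≤ 1 + -(1 / (2 * (t : ℝ))) := by
    have : 1 / (2 * (t : ℝ)) ≤ 1 := by rw [div_le_one (by positivity)]; linarith
    linarith
  calc (2 * (t : ℝ) ^ 2) ^ t / 2 = (2 * (t : ℝ) ^ 2) ^ t * (1 / 2) := by ring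
    _ ≤ (2 * (t : ℝ) ^ 2) ^ t * (1 + -(1 / (2 * (t : ℝ)))) ^ t :=
        mul_le_mul_of_nonneg_left hb (by positivity)
    _ = (2 * (t : ℝ) ^ 2 * (1 + -(1 / (2 * (t : ℝ))))) ^ t := by rw [← mul_pow]
    _ ≤ _ := by
        refine pow_le_pow_left₀ (by positivity) ?_ t
        have : 2 * (t : ℝ) ^ 2 * (1 + -(1 / (2 * (t : ℝ)))) = 2 * t ^ 2 - t := by
          field_simp; ring
        rw [this]; linarith

theorem Spr.key {C p θ : ℝ} (hC : 0 ≤ C) (hp : 0 < p) (hθ : 0 < θ) (S : Spr C p θ) (t : ℕ)
    (ht : 1 ≤ t) : (t : ℝ) ^ p ≤ 4 * C * 8 ^ p * t := by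
  classical
  set d := 2 * t ^ 2 with hd_def
  have hd : 2 ≤ d := by rw [hd_def]; nlinarith
  have hd' : (2 : ℝ) ≤ d := by exact_mod_cast hd
  have ht' : (1 : ℝ) ≤ t := by exact_mod_cast ht
  set s' := 2 * t + 1 + 1 with hs'
  set s := 2 * s' with hs
  obtain ⟨L, hL, hLφ⟩ := S.exists_block hθ (2 * t + 1)
  rw [← hs', ← hs] at hLφ
  have hφ : θ ≤ S.phi s' := S.le_phi (2 * t + 1)
  set φ := S.phi s'
  have hφ0 : 0 < φ := lt_of_lt_of_le hθ hφ
  have hvu : ∀ (b : Bool) (w : Fin t → Fin d), ∃ v u : ℝ, Function.Injective w →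
      Track d false b v (List.ofFn w) ∧ Track d true b u (List.ofFn w) ∧ (d : ℝ) * t ≤ v ∧
        v ≤ d * t + d ∧ v < u ∧ u < v + d := by
    intro b w
    by_cases hw : Function.Injective w
    · obtain ⟨v, u, h⟩ := exists_valley_peak hd (List.ofFn w) (List.nodup_ofFn.2 hw)
        (fun e => by have := congrArg List.length e; simp at this; omega) b t
      exact ⟨v, u, fun _ => h⟩
    · exact ⟨0, 0, fun h => absurd h hw⟩
  choose v u hvu using hvu
  let ξ : Bool → (Fin t → Fin d) → ℕ → ℝ := fun b w i =>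
    (if i % 2 = 1 then u b w else v b w) + d * ((i / 2 : ℕ) : ℤ)
  let I : Finset ℝ := (univ.biUnion fun q : Bool × (Fin t → Fin d) =>
      (range (2 * s' + 1)).biUnion fun i => (trajPts d q.1 (ξ q.1 q.2 i) (List.ofFn q.2)).toFinset)
    ∪ (univ.biUnion fun a : Fin d => (range (2 * s)).image fun j => (jp d a j : ℝ))
  have hI1 : ∀ b w i, i < 2 * s' + 1 → ∀ η ∈ trajPts d b (ξ b w i) (List.ofFn w), η ∈ I := by
    intro b w i hi η hη
    refine mem_union_left _ (mem_biUnion.2 ⟨(b, w), mem_univ _,
      mem_biUnion.2 ⟨i, mem_range.2 hi, List.mem_toFinset.2 hη⟩⟩)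
  have hI2 : ∀ (a : Fin d) j, j < 2 * s → (jp d a j : ℝ) ∈ I := by
    intro a j hj
    exact mem_union_right _ (mem_biUnion.2 ⟨a, mem_univ _,
      mem_image.2 ⟨j, mem_range.2 hj, rfl⟩⟩)
  obtain ⟨S₀, _, _, _, x, σ, bad, hx, hgood, hbad⟩ := exists_almost_invariant I
    (fun a : Fin d => ha d a) (fun a => ha_strictMono hd a) (1 / (2 * t)) (by positivity)
  let ρ : Fin d → S₀ × Bool → S₀ × Bool := fun a z =>
    if z.2 then ((σ a).symm z.1, false) else (σ a z.1, true)
  have hρ : ∀ a z, ρ a (ρ a z) = z := by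
    rintro a ⟨z, b⟩
    cases b <;> simp [ρ]
  let uu : S₀ → Fin d → ℕ →₀ ℝ := fun z a => mapDomain (fun j => x z (jp d a j)) (alt s)
  let y : S₀ × Bool → Fin d → ℕ →₀ ℝ := fun z a => if z.2 then 0 else uu z.1 a
  let badZ : Fin d → Finset (S₀ × Bool) := fun a =>
    (bad a).image (fun z => (z, false)) ∪ (bad a).image (fun z => (σ a z, true))
  have hbadZ : ∀ a, ((badZ a).card : ℝ) ≤ 1 / (2 * t) * Fintype.card (S₀ × Bool) := by
    intro a
    have h1 : (badZ a).card ≤ (bad a).card + (bad a).card :=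
      (Finset.card_union_le _ _).trans (Nat.add_le_add Finset.card_image_le Finset.card_image_le)
    have h2 : ((badZ a).card : ℝ) ≤ (bad a).card + (bad a).card := by exact_mod_cast h1
    have h3 := hbad a
    simp only [Fintype.card_prod, Fintype.card_bool]
    push_cast
    linarith
  have hnorm : ∀ z a, S.N _ (blockAvg L (uu z a)) = S.N _ (blockAvg L (alt s)) := by
    intro z a
    refine S.inv_block L _ _ fun i hi j hj hij => ?_
    exact hx z (hI2 a i (lt_of_mem_support_alt hi)) (hI2 a j (lt_of_mem_support_alt hj))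
      (by exact_mod_cast jp_strictMono hd a hij)
  have htail : ∀ z (a : Fin d) η, η ∈ I → 0 ≤ η → η < d * s →
      tail (x z η) (uu z a) = - if DD d a η then 1 else 0 := by
    intro z a η hη h0 h1
    rw [← sum_indicator_DD hd a s η h0 h1]
    simp only [uu, mapDomain_alt, map_sum, map_sub, tail_single]
    refine Finset.sum_congr rfl fun r hr => ?_
    have hr := mem_range.1 hr
    have e1 : (jp d a (2 * r) : ℝ) = (a : ℕ) + (d : ℝ) * r := by
      simp [jp]
    have e2 : (jp d a (2 * r + 1) : ℝ) = (a : ℕ) + (d : ℝ) * r + 1 := by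
      have : jp d a (2 * r + 1) = a + d * r + 1 := by
        unfold jp
        rw [show (2 * r + 1) / 2 = r by omega, show (2 * r + 1) % 2 = 1 by omega]
      rw [this]; push_cast; ring
    rw [← e2, ← e1]
    simp only [(hx z).lt_iff_lt hη (hI2 a (2 * r) (by omega)),
      (hx z).lt_iff_lt hη (hI2 a (2 * r + 1) (by omega))]
  have hcore : ∀ (side : Bool) (w : List (Fin d)) (z : S₀) (b : Bool) (η : ℝ),
      GoodW ρ badZ (z, b) w → Track d side b η w →
      (∀ η' ∈ trajPts d b η w, η' ∈ I ∧ 0 ≤ η' ∧ η' < d * s) →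
      tail (x z η) (walkSum ρ y (z, b) w) =
        valB b w.length - if side then (w.length : ℝ) else 0 := by
    intro side w
    induction w with
    | nil => intro z b η _ _ _; simp [walkSum, valB]
    | cons a w ih =>
      intro z b η hg htr hin
      have hη := hin η (self_mem_trajPts _ _ _ _)
      have hin' : ∀ η' ∈ trajPts d (!b) (mv d a b η) w, η' ∈ I ∧ 0 ≤ η' ∧ η' < d * s :=
        fun η' h => hin η' (by simp only [trajPts, List.mem_cons]; exact Or.inr h)
      have hη' := hin' _ (self_mem_trajPts _ _ _ _)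
      obtain ⟨hg1, hg2⟩ := hg
      obtain ⟨ht1, ht2⟩ := htr
      simp only [walkSum, map_add, List.length_cons, valB]
      cases b
      · have hz : z ∉ bad a := fun h => hg1 (mem_union_left _ (mem_image.2 ⟨z, h, rfl⟩))
        have e1 : ρ a (z, false) = (σ a z, true) := rfl
        have e2 : x (σ a z) (mv d a false η) = x z η := hgood a z hz η hη.1
        rw [e1] at hg2 ⊢
        have := ih (σ a z) true _ hg2 ht2 hin'
        rw [e2] at this
        rw [this]
        have e3 : y (z, false) a - y (σ a z, true) a = uu z a := by simp [y]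
        rw [e3, htail z a η hη.1 hη.2.1 hη.2.2]
        cases side
        · rw [if_neg (fun h => by simpa using ht1.1 h)]; simp
        · rw [if_pos (ht1.2 rfl)]; simp; ring
      · have hz : (σ a).symm z ∉ bad a := fun h => hg1 (mem_union_right _
          (mem_image.2 ⟨(σ a).symm z, h, by simp⟩))
        have e1 : ρ a (z, true) = ((σ a).symm z, false) := rfl
        have e2 : x z η = x ((σ a).symm z) (mv d a true η) := by
          have := hgood a _ hz _ hη'.1
          rwa [Equiv.apply_symm_apply, ha_mv_true hd] at this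
        rw [e1] at hg2 ⊢
        have := ih ((σ a).symm z) false _ hg2 ht2 hin'
        rw [e2, this]
        have e3 : y (z, true) a - y ((σ a).symm z, false) a = - uu ((σ a).symm z) a := by simp [y]
        rw [e3, map_neg, htail _ a _ hη'.1 hη'.2.1 hη'.2.2]
        cases side
        · rw [if_pos ((DD_mv hd _ _ _).2 (fun h => by simpa using ht1.1 h))]; simp
        · rw [if_neg (fun h => (DD_mv hd _ _ _).1 h (ht1.2 rfl))]; simp; ring
  have hlow : ∀ (w : Fin t → Fin d), Function.Injective w → ∀ z : S₀ × Bool,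
      GoodW ρ badZ z (List.ofFn w) →
      (t * φ / 2) ^ p ≤ S.N _ (blockAvg L (walkSum ρ y z (List.ofFn w))) ^ p := by
    rintro w hw ⟨z, b⟩ hg
    obtain ⟨tv, tu, b1, b2, b3, b4⟩ := hvu b w hw
    have hξmono : StrictMono (ξ b w) := by
      refine strictMono_nat_of_lt_succ fun j => ?_
      simp only [ξ]
      rcases Nat.mod_two_eq_zero_or_one j with h | h
      · rw [show (j + 1) / 2 = j / 2 by omega, if_neg (by omega), if_pos (by omega)]
        linarith
      · rw [show (j + 1) / 2 = j / 2 + 1 by omega, if_pos h, if_neg (by omega)]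
        push_cast
        linarith
    have hrange : ∀ i < 2 * s' + 1, ∀ η' ∈ trajPts d b (ξ b w i) (List.ofFn w),
        η' ∈ I ∧ 0 ≤ η' ∧ η' < d * s := by
      intro i hi η' hη'
      refine ⟨hI1 b w i hi η' hη', ?_⟩
      have h1 := trajPts_bounds hd hη'
      simp only [List.length_ofFn] at h1
      have h2 : ξ b w 0 ≤ ξ b w i := hξmono.monotone (Nat.zero_le _)
      have h3 : ξ b w i ≤ ξ b w (2 * s') := hξmono.monotone (by omega)
      have h4 : ξ b w 0 = v b w := by simp [ξ]
      have h5 : ξ b w (2 * s') = v b w + d * s' := by simp [ξ]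
      have h6 : (s : ℝ) = 2 * s' := by rw [hs]; push_cast; ring
      have h7 : (s' : ℝ) = 2 * t + 2 := by rw [hs']; push_cast; ring
      refine ⟨by linarith, ?_⟩
      have h8 : η' ≤ v b w + d * s' + d * t := by linarith
      rw [h6, h7]
      rw [h7] at h8
      linarith
    have := S.lower_bound L hL s' (fun i => x z (ξ b w i))
      (fun i j hij hj => (hx z).monotoneOn
        (hI1 b w i (by omega) _ (self_mem_trajPts _ _ _ _))
        (hI1 b w j hj _ (self_mem_trajPts _ _ _ _)) (hξmono.monotone hij))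
      (walkSum ρ y (z, b) (List.ofFn w)) t (valB b t) (by positivity) (fun i hi => by
        by_cases h : i % 2 = 1
        · have e : ξ b w i = u b w + d * ((i / 2 : ℕ) : ℤ) := by simp only [ξ, if_pos h]
          have := hcore true _ z b (ξ b w i) hg (by rw [e]; exact tu.add hd _) (hrange i hi)
          simpa [h] using this
        · have e : ξ b w i = v b w + d * ((i / 2 : ℕ) : ℤ) := by simp only [ξ, if_neg h]
          have := hcore false _ z b (ξ b w i) hg (by rw [e]; exact tv.add hd _) (hrange i hi)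
          simpa [h] using this)
    exact Real.rpow_le_rpow (by positivity) (by linarith) hp.le
  have hft := ((S.ft (ℕ ×ₗ ℕ)).comp (blockAvg L).toAddMonoidHom) (S₀ × Bool) (Fin d) ρ hρ y t ht
  simp only [LinearMap.toAddMonoidHom_coe, Fintype.card_fin] at hft
  set Zc : ℝ := (Fintype.card (S₀ × Bool) : ℝ) with hZc
  have hZ0 : 0 < Zc := by rw [hZc]; exact_mod_cast Fintype.card_pos
  have hR : ∑ z, ∑ a, S.N _ (blockAvg L (y z a - y (ρ a z) a)) ^ p ≤ Zc * d * (4 * φ) ^ p := by
    have : ∀ z a, S.N _ (blockAvg L (y z a - y (ρ a z) a)) ^ p ≤ (4 * φ) ^ p := by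
      rintro ⟨z, b⟩ a
      refine Real.rpow_le_rpow (apply_nonneg _ _) ?_ hp.le
      cases b
      · have e3 : y (z, false) a - y (ρ a (z, false)) a = uu z a := by simp [y, ρ]
        rw [e3, hnorm]; exact hLφ
      · have e3 : y (z, true) a - y (ρ a (z, true)) a = - uu ((σ a).symm z) a := by simp [y, ρ]
        rw [e3, map_neg, map_neg_eq_map, hnorm]; exact hLφ
    refine (Finset.sum_le_sum fun z _ => Finset.sum_le_sum fun a _ => this z a).trans
      (le_of_eq ?_)
    simp only [Finset.sum_const, card_univ, Fintype.card_fin, nsmul_eq_mul, hZc]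
    ring
  have hL' : (d : ℝ) ^ t / 2 * (Zc / 2 * (t * φ / 2) ^ p) ≤
      ∑ z, ∑ w : Fin t → Fin d, S.N _ (blockAvg L (walkSum ρ y z (List.ofFn w))) ^ p := by
    rw [Finset.sum_comm]
    have h1 : ∀ w ∈ (univ.filter fun w : Fin t → Fin d => Function.Injective w),
        Zc / 2 * (t * φ / 2) ^ p ≤
          ∑ z, S.N _ (blockAvg L (walkSum ρ y z (List.ofFn w))) ^ p := by
      intro w hw
      have hw := (mem_filter.1 hw).2
      have c1 := card_not_good ρ hρ badZ _ hbadZ (List.ofFn w)
        (univ.filter fun z => ¬ GoodW ρ badZ z (List.ofFn w)) (fun z hz => (mem_filter.1 hz).2)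
      have c2 := Finset.card_filter_add_card_filter_not (s := (univ : Finset (S₀ × Bool)))
        (fun z => GoodW ρ badZ z (List.ofFn w))
      have c3 : ((univ.filter fun z => GoodW ρ badZ z (List.ofFn w)).card : ℝ) +
          (univ.filter fun z => ¬ GoodW ρ badZ z (List.ofFn w)).card = Zc := by
        rw [hZc]; exact_mod_cast c2
      have c4 : ((List.ofFn w).length : ℝ) * (1 / (2 * t) * Zc) = Zc / 2 := by
        simp only [List.length_ofFn]; field_simp
      have c5 : Zc / 2 ≤ (univ.filter fun z => GoodW ρ badZ z (List.ofFn w)).card := by linarith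
      calc Zc / 2 * (t * φ / 2) ^ p ≤
            (univ.filter fun z => GoodW ρ badZ z (List.ofFn w)).card * (t * φ / 2) ^ p :=
            mul_le_mul_of_nonneg_right c5 (by positivity)
        _ = ∑ z ∈ univ.filter fun z => GoodW ρ badZ z (List.ofFn w), (t * φ / 2) ^ p := by
            simp
        _ ≤ ∑ z ∈ univ.filter fun z => GoodW ρ badZ z (List.ofFn w),
            S.N _ (blockAvg L (walkSum ρ y z (List.ofFn w))) ^ p :=
            Finset.sum_le_sum fun z hz => hlow w hw z (mem_filter.1 hz).2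
        _ ≤ _ := Finset.sum_le_sum_of_subset_of_nonneg (filter_subset _ _)
            fun z _ _ => Real.rpow_nonneg (apply_nonneg _ _) _
    calc (d : ℝ) ^ t / 2 * (Zc / 2 * (t * φ / 2) ^ p) ≤
          (univ.filter fun w : Fin t → Fin d => Function.Injective w).card *
            (Zc / 2 * (t * φ / 2) ^ p) :=
          mul_le_mul_of_nonneg_right (card_injective_ge t ht) (by positivity)
      _ = ∑ w ∈ univ.filter fun w : Fin t → Fin d => Function.Injective w,
            Zc / 2 * (t * φ / 2) ^ p := by simp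
      _ ≤ _ := (Finset.sum_le_sum h1).trans
          (Finset.sum_le_sum_of_subset_of_nonneg (filter_subset _ _)
            fun w _ _ => Finset.sum_nonneg fun z _ => Real.rpow_nonneg (apply_nonneg _ _) _)
  have hfin : (d : ℝ) * ((d : ℝ) ^ t / 2 * (Zc / 2 * (t * φ / 2) ^ p)) ≤
      C * t * (d : ℝ) ^ t * (Zc * d * (4 * φ) ^ p) :=
    (mul_le_mul_of_nonneg_left hL' (by positivity)).trans
      (hft.trans (mul_le_mul_of_nonneg_left hR (by positivity)))
  have e1 : (t * φ / 2) ^ p = (t : ℝ) ^ p * (φ / 2) ^ p := by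
    rw [← Real.mul_rpow (by positivity) (by positivity)]; congr 1; ring
  have e2 : (4 * φ) ^ p = (8 : ℝ) ^ p * (φ / 2) ^ p := by
    rw [← Real.mul_rpow (by positivity) (by positivity)]; congr 1; ring
  rw [e1, e2] at hfin
  have hq : 0 < (d : ℝ) * (d : ℝ) ^ t * Zc * (φ / 2) ^ p / 4 := by positivity
  refine le_of_mul_le_mul_left ?_ hq
  calc _ = (d : ℝ) * ((d : ℝ) ^ t / 2 * (Zc / 2 * ((t : ℝ) ^ p * (φ / 2) ^ p))) := by ring
    _ ≤ _ := hfin
    _ = _ := by ring

theorem Spr.false {C p θ : ℝ} (hC : 0 ≤ C) (hp : 1 < p) (hθ : 0 < θ) (S : Spr C p θ) : False := by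
  have h1 : Tendsto (fun t : ℕ => (t : ℝ) ^ (p - 1)) atTop atTop :=
    (tendsto_rpow_atTop (by linarith)).comp tendsto_natCast_atTop_atTop
  obtain ⟨t, ht1, ht2⟩ :=
    ((h1.eventually_gt_atTop (4 * C * 8 ^ p)).and (eventually_ge_atTop 1)).exists
  have ht' : (0 : ℝ) < t := by exact_mod_cast ht2
  have := S.key hC (by linarith) hθ t ht2
  rw [Real.rpow_sub_one ht'.ne', lt_div_iff₀ ht'] at ht1
  linarith

end Vale.Agent.P125
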