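import Vale.Agent.P125.Ultra
import Vale.Agent.P125.FormType

/-!
Spreading invariant seminorms obtained from ladders, and the collapse lemma.
-/

namespace Vale.Agent.P125

open Filter Topology Finset Finsupp

/-- replace every basis vector by the average of a block of length `M`. -/
noncomputable def blockAvg {β : Type} (M : ℕ) : (β →₀ ℝ) →ₗ[ℝ] (β ×ₗ ℕ →₀ ℝ) :=
  (M : ℝ)⁻¹ • ∑ r ∈ range M, Finsupp.lmapDomain ℝ ℝ (fun b => toLex (b, r))

lemma blockAvg_apply {β : Type} (M : ℕ) (a : β →₀ ℝ) :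
    blockAvg M a = (M : ℝ)⁻¹ • ∑ r ∈ range M, mapDomain (fun b => toLex (b, r)) a := by
  simp [blockAvg, LinearMap.sum_apply]

/-- a spreading invariant family of seminorms with the form-type inequality and a ladder. -/
structure Spr (C p θ : ℝ) where
  N : ∀ (α : Type) [LinearOrder α], Seminorm ℝ (α →₀ ℝ)
  inv : ∀ {α β : Type} [LinearOrder α] [LinearOrder β] (j : α → β) (a : α →₀ ℝ),
    StrictMonoOn j a.support → N β (mapDomain j a) = N α a
  le_one : ∀ (α : Type) [LinearOrder α] (i : α), N α (single i 1) ≤ 1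
  ft : ∀ (α : Type) [LinearOrder α], FT C (fun a => N α a ^ p)
  lad : ∀ M : ℕ, 0 < M → θ ≤ N (ℕ ×ₗ ℕ) (blockAvg M (single 0 1 - single 1 1))

lemma seminorm_sum_le {V ι : Type*} [AddCommGroup V] [Module ℝ V] (N : Seminorm ℝ V)
    (s : Finset ι) (f : ι → V) : N (∑ i ∈ s, f i) ≤ ∑ i ∈ s, N (f i) := by
  classical
  induction s using Finset.induction_on with
  | empty => simp
  | insert i s hi ih =>
    rw [Finset.sum_insert hi, Finset.sum_insert hi]
    exact (map_add_le_add N _ _).trans (by linarith)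

lemma mapDomain_eq_sum {α β : Type*} (g : α → β) (a : α →₀ ℝ) :
    mapDomain g a = ∑ i ∈ a.support, a i • single (g i) (1 : ℝ) := by
  simp [mapDomain, Finsupp.sum]

lemma seminorm_mapDomain_le {α β : Type*} (N : Seminorm ℝ (β →₀ ℝ))
    (hN : ∀ i, N (single i 1) ≤ 1) (g : α → β) (a : α →₀ ℝ) :
    N (mapDomain g a) ≤ ∑ i ∈ a.support, |a i| := by
  rw [mapDomain_eq_sum]
  refine (seminorm_sum_le N _ _).trans (Finset.sum_le_sum fun i _ => ?_)
  rw [map_smul_eq_mul, Real.norm_eq_abs]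
  exact mul_le_of_le_one_right (abs_nonneg _) (hN _)

section construction

variable (N : ℕ → Seminorm ℝ (ℕ →₀ ℝ)) (h1 : ∀ n i, N n (single i 1) ≤ 1)

/-- the quantity whose ultralimit is the spreading seminorm. -/
noncomputable def preSpr {α : Type} (a : α →₀ ℝ) (x : WithTop α → ℕ) : ℝ :=
  N (x ⊤) (mapDomain (fun i : α => x i) a)

/-- the ultralimit. -/
noncomputable def sprFun (α : Type) [LinearOrder α] (a : α →₀ ℝ) : ℝ :=
  limUnder (W (WithTop α)) (preSpr N a)

include h1 in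
lemma tendsto_sprFun (α : Type) [LinearOrder α] (a : α →₀ ℝ) :
    Tendsto (preSpr N a) (W (WithTop α)) (𝓝 (sprFun N α a)) := by
  refine tendsto_nhds_limUnder ?_
  refine ultra_exists_tendsto _ _ (∑ i ∈ a.support, |a i|) fun x => ?_
  rw [preSpr, abs_of_nonneg (apply_nonneg _ _)]
  exact seminorm_mapDomain_le _ (h1 _) _ _

/-- the spreading seminorm. -/
noncomputable def sprNorm (α : Type) [LinearOrder α] : Seminorm ℝ (α →₀ ℝ) :=
  Seminorm.of (sprFun N α)
    (fun a b => le_of_tendsto_of_tendsto' (tendsto_sprFun N h1 α (a + b))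
      ((tendsto_sprFun N h1 α a).add (tendsto_sprFun N h1 α b)) fun x => by
        simp only [preSpr, mapDomain_add]
        exact map_add_le_add _ _ _)
    (fun c a => tendsto_nhds_unique (tendsto_sprFun N h1 α (c • a)) (by
      have := (tendsto_sprFun N h1 α a).const_mul ‖c‖
      refine this.congr fun x => ?_
      simp only [preSpr, mapDomain_smul, map_smul_eq_mul]))

lemma tendsto_sprNorm (α : Type) [LinearOrder α] (a : α →₀ ℝ) :
    Tendsto (preSpr N a) (W (WithTop α)) (𝓝 (sprNorm N h1 α a)) :=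
  tendsto_sprFun N h1 α a

lemma sprNorm_inv {α β : Type} [LinearOrder α] [LinearOrder β] (j : α → β) (a : α →₀ ℝ)
    (hj : StrictMonoOn j a.support) : sprNorm N h1 β (mapDomain j a) = sprNorm N h1 α a := by
  classical
  let l := a.support.sort (· ≤ ·)
  have hl : l.Pairwise (· < ·) := (Finset.sortedLT_sort _).pairwise
  have hmem : ∀ i, i ∈ l ↔ i ∈ a.support := fun i => Finset.mem_sort _
  let φ : List ℕ → ℝ := fun v => N (v.getD l.length 0)
    (mapDomain (fun i => v.getD (l.idxOf i) 0) a)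
  have hφ : ∀ (g : α → ℕ) (m : ℕ), φ (l.map g ++ [m]) = N m (mapDomain g a) := by
    intro g m
    simp only [φ]
    have e1 : (l.map g ++ [m]).getD l.length 0 = m := by
      simp [List.getD_eq_getElem?_getD]
    rw [e1]
    congr 1
    refine mapDomain_congr fun i hi => ?_
    have hlt : l.idxOf i < l.length := List.idxOf_lt_length_of_mem ((hmem i).2 hi)
    rw [List.getD_eq_getElem?_getD, List.getElem?_append_left (by simpa using hlt),
      List.getElem?_map, List.getElem?_eq_getElem hlt]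
    simp
  have hs1 : (l.map (fun i : α => (i : WithTop α)) ++ [⊤]).Pairwise (· < ·) := by
    rw [List.pairwise_append]
    refine ⟨List.pairwise_map.2 (hl.imp fun h => WithTop.coe_lt_coe.2 h), by simp, ?_⟩
    simp
  have hs2 : (l.map (fun i : α => (j i : WithTop β)) ++ [⊤]).Pairwise (· < ·) := by
    rw [List.pairwise_append]
    refine ⟨List.pairwise_map.2 (hl.imp_of_mem fun {a b} ha hb h =>
      WithTop.coe_lt_coe.2 (hj ((hmem a).1 ha) ((hmem b).1 hb) h)), by simp, ?_⟩
    simp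
  have t1 : Tendsto (fun x : WithTop α → ℕ =>
      φ ((l.map (fun i : α => (i : WithTop α)) ++ [⊤]).map x)) (W (WithTop α))
      (𝓝 (sprNorm N h1 α a)) := by
    refine (tendsto_sprNorm N h1 α a).congr fun x => ?_
    rw [List.map_append, List.map_map, List.map_singleton, hφ]
    rfl
  have t2 := W_tendsto hs1 hs2 (by simp) φ _ t1
  refine tendsto_nhds_unique (tendsto_sprNorm N h1 β (mapDomain j a)) (t2.congr fun x => ?_)
  rw [List.map_append, List.map_map, List.map_singleton, hφ, preSpr, ← mapDomain_comp]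
  rfl

end construction

theorem exists_spr {C p θ : ℝ} (hp : 0 < p) (N : ℕ → Seminorm ℝ (ℕ →₀ ℝ))
    (h1 : ∀ n i, N n (single i 1) ≤ 1) (hft : ∀ n, FT C (fun a => N n a ^ p))
    (hlad : ∀ n c, c < n → ∃ lam : (ℕ →₀ ℝ) →ₗ[ℝ] ℝ, (∀ a, lam a ≤ N n a) ∧
      ∀ i j, i < c → c ≤ j → j < n → θ ≤ lam (single i 1) - lam (single j 1)) :
    Nonempty (Spr C p θ) := by
  refine ⟨⟨fun α _ => sprNorm N h1 α, fun j a hj => sprNorm_inv N h1 j a hj, ?_, ?_, ?_⟩⟩
  · intro α _ i
    refine le_of_tendsto' (tendsto_sprNorm N h1 α _) fun x => ?_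
    simp only [preSpr, mapDomain_single]
    exact h1 _ _
  · intro α _
    refine FT.of_tendsto (W (WithTop α) : Filter (WithTop α → ℕ))
      (Ψ := fun x a => preSpr N a x ^ p) (fun x => ?_) fun a => ?_
    · exact (hft (x ⊤)).comp (Finsupp.mapDomain.addMonoidHom (fun i : α => x i))
    · exact (tendsto_sprNorm N h1 α a).rpow_const (Or.inr hp.le)
  · intro M hM
    refine ge_of_tendsto (tendsto_sprNorm N h1 _ _) ?_
    have hM' : (0 : ℝ) < M := by exact_mod_cast hM
    let pt : ℕ → ℕ → WithTop (ℕ ×ₗ ℕ) := fun b r => ((toLex (b, r) : ℕ ×ₗ ℕ) : WithTop (ℕ ×ₗ ℕ))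
    have e1 : ∀ᶠ x in (W (WithTop (ℕ ×ₗ ℕ)) : Filter (WithTop (ℕ ×ₗ ℕ) → ℕ)),
        ∀ r ∈ range M, x (pt 0 r) < x (pt 1 0) ∧ x (pt 1 0) ≤ x (pt 1 r) ∧ x (pt 1 r) < x ⊤ := by
      rw [Finset.eventually_all]
      intro r _
      refine (W_lt ?_).and (Eventually.and ?_ (W_lt (WithTop.coe_lt_top _)))
      · exact WithTop.coe_lt_coe.2 (Prod.Lex.toLex_lt_toLex.2 (Or.inl (by norm_num)))
      · rcases Nat.eq_zero_or_pos r with rfl | hr
        · exact Eventually.of_forall fun x => le_rfl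
        · have : pt 1 0 < pt 1 r :=
            WithTop.coe_lt_coe.2 (Prod.Lex.toLex_lt_toLex.2 (Or.inr ⟨rfl, hr⟩))
          filter_upwards [W_lt this] with x hx using hx.le
    filter_upwards [e1] with x hx
    obtain ⟨lam, hlam, hθ⟩ := hlad (x ⊤) (x (pt 1 0)) (hx 0 (mem_range.2 hM)).2.2
    refine le_trans ?_ (hlam _)
    rw [blockAvg_apply, mapDomain_smul, map_smul, mapDomain_finsetSum, map_sum]
    have : ∀ r ∈ range M, θ ≤ lam (mapDomain (fun i : ℕ ×ₗ ℕ => x i)
        (mapDomain (fun b => toLex (b, r)) (single 0 1 - single 1 1 : ℕ →₀ ℝ))) := by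
      intro r hr
      rw [mapDomain_sub, mapDomain_sub, map_sub]
      simp only [mapDomain_single]
      exact hθ _ _ (hx r hr).1 (hx r hr).2.1 (hx r hr).2.2
    have h2 := Finset.sum_le_sum this
    rw [Finset.sum_const, card_range, nsmul_eq_mul] at h2
    rw [smul_eq_mul, le_inv_mul_iff₀ hM']
    exact h2

namespace Spr

variable {C p θ : ℝ} (S : Spr C p θ)

lemma shift_block_le {β : Type} [LinearOrder β] (b : β) (k M : ℕ) :
    S.N (β ×ₗ ℕ) (∑ r ∈ range M, (single (toLex (b, r)) (1 : ℝ) - single (toLex (b, k + r)) 1))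
      ≤ 2 * k := by
  have e : ∑ r ∈ range M, (single (toLex (b, r)) (1 : ℝ) - single (toLex (b, k + r)) 1) =
      ∑ r ∈ range k, (single (toLex (b, r)) (1 : ℝ) - single (toLex (b, M + r)) 1) := by
    have a1 := Finset.sum_range_add (fun r => (single (toLex (b, r)) (1 : ℝ) : β ×ₗ ℕ →₀ ℝ)) M k
    have a2 := Finset.sum_range_add (fun r => (single (toLex (b, r)) (1 : ℝ) : β ×ₗ ℕ →₀ ℝ)) k M
    rw [add_comm k M, a1] at a2
    rw [Finset.sum_sub_distrib, Finset.sum_sub_distrib, sub_eq_sub_iff_add_eq_add, a2]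
  rw [e]
  refine (seminorm_sum_le _ _ _).trans ?_
  have : ∀ r ∈ range k, S.N (β ×ₗ ℕ)
      (single (toLex (b, r)) (1 : ℝ) - single (toLex (b, M + r)) 1) ≤ 2 := fun r _ =>
    (map_sub_le_add _ _ _).trans (by
      have u1 := S.le_one (β ×ₗ ℕ) (toLex (b, r))
      have u2 := S.le_one (β ×ₗ ℕ) (toLex (b, M + r))
      linarith)
  refine (Finset.sum_le_sum this).trans ?_
  simp [mul_comm]

/-- the collapse lemma -/
lemma collapse {α β : Type} [LinearOrder α] [LinearOrder β] (g : α → β) (hg : Monotone g)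
    (a : α →₀ ℝ) : ∃ D : ℝ, ∀ M : ℕ, 0 < M →
      S.N (β ×ₗ ℕ) (blockAvg M (mapDomain g a)) ≤ S.N α a + D / M := by
  classical
  let rk : α → ℕ := fun i => (a.support.filter (· < i)).card
  have hrk : StrictMonoOn rk a.support := by
    intro i hi j _ hij
    refine Finset.card_lt_card ⟨fun k hk => ?_, fun hsub => ?_⟩
    · simp only [mem_filter] at hk ⊢
      exact ⟨hk.1, hk.2.trans hij⟩
    · have : i ∈ a.support.filter (· < j) := mem_filter.2 ⟨hi, hij⟩
      exact lt_irrefl _ (mem_filter.1 (hsub this)).2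
  refine ⟨∑ i ∈ a.support, |a i| * (2 * rk i), fun M hM => ?_⟩
  have hM' : (0 : ℝ) < M := by exact_mod_cast hM
  let j : ℕ → α → β ×ₗ ℕ := fun r i => toLex (g i, rk i + r)
  have hj : ∀ r, StrictMonoOn (j r) a.support := by
    intro r i hi i' hi' hii
    refine Prod.Lex.toLex_lt_toLex.2 ?_
    rcases (hg hii.le).lt_or_eq with h | h
    · exact Or.inl h
    · exact Or.inr ⟨h, Nat.add_lt_add_right (hrk hi hi' hii) r⟩
  have e : blockAvg M (mapDomain g a) = (M : ℝ)⁻¹ • (∑ r ∈ range M, mapDomain (j r) a +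
      ∑ i ∈ a.support, a i • ∑ r ∈ range M,
        (single (toLex (g i, r)) (1 : ℝ) - single (toLex (g i, rk i + r)) 1)) := by
    rw [blockAvg_apply]
    congr 1
    simp only [Finset.smul_sum]
    rw [Finset.sum_comm (s := a.support), ← Finset.sum_add_distrib]
    refine Finset.sum_congr rfl fun r _ => ?_
    rw [← mapDomain_comp, mapDomain_eq_sum, mapDomain_eq_sum, ← Finset.sum_add_distrib]
    refine Finset.sum_congr rfl fun i _ => ?_
    simp only [j, Function.comp, smul_sub]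
    abel
  rw [e, map_smul_eq_mul, Real.norm_eq_abs, abs_of_pos (inv_pos.2 hM'), inv_mul_le_iff₀ hM']
  refine (map_add_le_add _ _ _).trans ?_
  have b1 : S.N _ (∑ r ∈ range M, mapDomain (j r) a) ≤ M * S.N α a := by
    refine (seminorm_sum_le _ _ _).trans (le_of_eq ?_)
    rw [Finset.sum_congr rfl fun r _ => S.inv (j r) a (hj r)]
    simp
  have b2 : S.N _ (∑ i ∈ a.support, a i • ∑ r ∈ range M,
        (single (toLex (g i, r)) (1 : ℝ) - single (toLex (g i, rk i + r)) 1)) ≤
      ∑ i ∈ a.support, |a i| * (2 * rk i) := by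
    refine (seminorm_sum_le _ _ _).trans (Finset.sum_le_sum fun i _ => ?_)
    rw [map_smul_eq_mul, Real.norm_eq_abs]
    exact mul_le_mul_of_nonneg_left (S.shift_block_le _ _ _) (abs_nonneg _)
  have : (M : ℝ) * (S.N α a + (∑ i ∈ a.support, |a i| * (2 * rk i)) / M) =
      M * S.N α a + ∑ i ∈ a.support, |a i| * (2 * rk i) := by
    rw [mul_add, mul_div_cancel₀ _ hM'.ne']
  linarith

lemma blockAvg_mapDomain {α β : Type} (M : ℕ) (j : α → β) (a : α →₀ ℝ) :
    blockAvg M (mapDomain j a) =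
      mapDomain (fun q : α ×ₗ ℕ => toLex (j (ofLex q).1, (ofLex q).2)) (blockAvg M a) := by
  rw [blockAvg_apply, blockAvg_apply, mapDomain_smul, mapDomain_finsetSum]
  congr 1
  refine Finset.sum_congr rfl fun r _ => ?_
  rw [← mapDomain_comp, ← mapDomain_comp]
  rfl

lemma fst_mem_support_of_blockAvg {α : Type} (M : ℕ) (a : α →₀ ℝ) (q : α ×ₗ ℕ)
    (hq : q ∈ (blockAvg M a).support) : (ofLex q).1 ∈ a.support := by
  classical
  rw [blockAvg_apply] at hq
  have h1 := Finsupp.support_smul hq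
  have h2 := Finsupp.support_finsetSum h1
  obtain ⟨r, _, hr⟩ := Finset.mem_biUnion.1 h2
  obtain ⟨i, hi, rfl⟩ := Finset.mem_image.1 (mapDomain_support hr)
  exact hi

lemma inv_block {α β : Type} [LinearOrder α] [LinearOrder β] (M : ℕ) (j : α → β) (a : α →₀ ℝ)
    (hj : StrictMonoOn j a.support) :
    S.N _ (blockAvg M (mapDomain j a)) = S.N _ (blockAvg M a) := by
  rw [blockAvg_mapDomain]
  refine S.inv _ _ fun q hq q' hq' h => ?_
  have h1 := fst_mem_support_of_blockAvg M a q hq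
  have h2 := fst_mem_support_of_blockAvg M a q' hq'
  refine Prod.Lex.toLex_lt_toLex.2 ?_
  rcases Prod.Lex.lt_iff.1 h with h | ⟨h, h'⟩
  · exact Or.inl (hj h1 h2 h)
  · exact Or.inr ⟨by rw [h], h'⟩

lemma mapDomain_fst_blockAvg {α β : Type} (M : ℕ) (hM : 0 < M) (g : α → β) (a : α →₀ ℝ) :
    mapDomain (fun q : α ×ₗ ℕ => g (ofLex q).1) (blockAvg M a) = mapDomain g a := by
  rw [blockAvg_apply, mapDomain_smul, mapDomain_finsetSum]
  have : ∀ r ∈ range M, mapDomain (fun q : α ×ₗ ℕ => g (ofLex q).1)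
      (mapDomain (fun b => toLex (b, r)) a) = mapDomain g a := by
    intro r _
    rw [← mapDomain_comp]
    rfl
  rw [Finset.sum_congr rfl this, Finset.sum_const, card_range, ← Nat.cast_smul_eq_nsmul ℝ,
    smul_smul, inv_mul_cancel₀ (by exact_mod_cast hM.ne'), one_smul]

/-- collapse lemma for blocked vectors -/
lemma collapse_block {α β : Type} [LinearOrder α] [LinearOrder β] (L : ℕ) (hL : 0 < L)
    (g : α → β) (hg : Monotone g) (a : α →₀ ℝ) : ∃ D : ℝ, ∀ M : ℕ, 0 < M →
      S.N (β ×ₗ ℕ) (blockAvg M (mapDomain g a)) ≤ S.N _ (blockAvg L a) + D / M := by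
  have hg' : Monotone (fun q : α ×ₗ ℕ => g (ofLex q).1) := fun q q' h =>
    hg (Prod.Lex.monotone_fst _ _ h)
  obtain ⟨D, hD⟩ := S.collapse _ hg' (blockAvg L a)
  rw [mapDomain_fst_blockAvg L hL] at hD
  exact ⟨D, hD⟩

end Spr

end Vale.Agent.P125
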