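import Mathlib

/-!
Tensor powers of a free ultrafilter: an ultrafilter `W α` on `α → ℕ` all of whose marginals along
increasing `k`-tuples coincide.
-/

namespace Vale.Agent.P125

open Filter Topology

lemma mem_ubind {α β : Type*} (f : Ultrafilter α) (m : α → Ultrafilter β) (s : Set β) :
    s ∈ f.bind m ↔ ∀ᶠ a in (f : Filter α), s ∈ m a := Iff.rfl

/-- tensor powers of the hyperfilter, on lists. -/
noncomputable def VV : ℕ → Ultrafilter (List ℕ)
  | 0 => pure []
  | n + 1 => (hyperfilter ℕ).bind fun m => (VV n).map (fun l => m :: l)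

/-- tensor powers of the hyperfilter, on functions. -/
noncomputable def WL {α : Type*} [DecidableEq α] : List α → Ultrafilter (α → ℕ)
  | [] => pure (fun _ => 0)
  | i :: l => (hyperfilter ℕ).bind fun m => (WL l).map (fun x => Function.update x i m)

lemma WL_map {α : Type*} [DecidableEq α] {l' l : List α} (h : l'.Sublist l) (hl : l.Nodup) :
    (WL l).map (fun x => l'.map x) = VV l'.length := by
  induction h with
  | slnil => 
    ext s
    simp [WL, VV]
  | @cons l' l i h ih =>
    have hi : i ∉ l' := fun hi => (List.nodup_cons.1 hl).1 (h.subset hi)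
    have ih := ih (List.nodup_cons.1 hl).2
    ext s
    rw [Ultrafilter.mem_map, WL, mem_ubind]
    have : ∀ m : ℕ, ((fun x : α → ℕ => l'.map x) ⁻¹' s ∈
        (WL l).map (fun x => Function.update x i m)) ↔ s ∈ VV l'.length := by
      intro m
      rw [← ih, Ultrafilter.mem_map, Ultrafilter.mem_map, ← Set.preimage_comp]
      have : ((fun x : α → ℕ => l'.map x) ∘ fun x => Function.update x i m) =
          fun x : α → ℕ => l'.map x := by
        funext x
        simp only [Function.comp]
        refine List.map_congr_left fun j hj => ?_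
        exact Function.update_of_ne (fun e : j = i => hi (e ▸ hj)) _ _
      rw [this]
    simp only [this, eventually_const]
  | @cons_cons l' l i h ih =>
    have hi : i ∉ l' := fun hi => (List.nodup_cons.1 hl).1 (h.subset hi)
    have ih := ih (List.nodup_cons.1 hl).2
    ext s
    rw [Ultrafilter.mem_map, WL, mem_ubind, List.length_cons, VV, mem_ubind]
    have : ∀ m : ℕ, ((fun x : α → ℕ => (i :: l').map x) ⁻¹' s ∈
        (WL l).map (fun x => Function.update x i m)) ↔
        s ∈ (VV l'.length).map (fun l => m :: l) := by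
      intro m
      rw [← ih, Ultrafilter.mem_map, Ultrafilter.mem_map, Ultrafilter.mem_map,
        ← Set.preimage_comp, ← Set.preimage_comp]
      have : ((fun x : α → ℕ => (i :: l').map x) ∘ fun x => Function.update x i m) =
          (fun l => m :: l) ∘ fun x : α → ℕ => l'.map x := by
        funext x
        simp only [Function.comp, List.map_cons, Function.update_self]
        congr 1
        refine List.map_congr_left fun j hj => ?_
        exact Function.update_of_ne (fun e : j = i => hi (e ▸ hj)) _ _
      rw [this]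
    simp only [this]

/-- the ultrafilter with equal marginals along increasing tuples. -/
noncomputable def W (α : Type*) [LinearOrder α] : Ultrafilter (α → ℕ) :=
  (Ultrafilter.of (atTop : Filter (Finset α))).bind fun I => WL (I.sort (· ≤ ·))

lemma W_map {α : Type*} [LinearOrder α] {l : List α} (hl : l.Pairwise (· < ·)) :
    (W α).map (fun x => l.map x) = VV l.length := by
  ext s
  rw [Ultrafilter.mem_map, W, mem_ubind]
  have h1 : ∀ᶠ I in (Ultrafilter.of (atTop : Filter (Finset α)) : Filter (Finset α)),
      l.toFinset ≤ I := Ultrafilter.of_le _ (eventually_ge_atTop _)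
  have h2 : ∀ᶠ I in (Ultrafilter.of (atTop : Filter (Finset α)) : Filter (Finset α)),
      ((fun x : α → ℕ => l.map x) ⁻¹' s ∈ WL (I.sort (· ≤ ·)) ↔ s ∈ VV l.length) := by
    filter_upwards [h1] with I hI
    have hsub : l.Sublist (I.sort (· ≤ ·)) := by
      refine List.sublist_of_subperm_of_pairwise (r := (· ≤ ·)) ?_ (hl.imp le_of_lt)
        (Finset.pairwise_sort _ _)
      refine List.Nodup.subperm hl.nodup fun a ha => ?_
      rw [Finset.mem_sort]
      exact hI (List.mem_toFinset.2 ha)
    rw [← WL_map hsub (Finset.sort_nodup _ _), Ultrafilter.mem_map]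
  rw [eventually_congr h2, eventually_const]

lemma W_tendsto {α β γ : Type*} [LinearOrder α] [LinearOrder β] {l : List α} {l' : List β}
    (hl : l.Pairwise (· < ·)) (hl' : l'.Pairwise (· < ·)) (hlen : l.length = l'.length)
    (φ : List ℕ → γ) (F : Filter γ) (h : Tendsto (fun x => φ (l.map x)) (W α) F) :
    Tendsto (fun x => φ (l'.map x)) (W β) F := by
  have h1 : Tendsto φ (VV l.length) F := by
    rw [← W_map hl, Ultrafilter.coe_map, tendsto_map'_iff]
    exact h
  rw [hlen, ← W_map hl', Ultrafilter.coe_map, tendsto_map'_iff] at h1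
  exact h1

lemma W_lt {α : Type*} [LinearOrder α] {i j : α} (h : i < j) : ∀ᶠ x in (W α : Filter (α → ℕ)),
    x i < x j := by
  have h1 : ({l | l.Pairwise (· < ·)} : Set (List ℕ)) ∈ VV 2 := by
    rw [VV, mem_ubind]
    refine Eventually.of_forall fun m => ?_
    rw [Ultrafilter.mem_map, VV, mem_ubind]
    have : ∀ᶠ n in (hyperfilter ℕ : Filter ℕ), m < n :=
      Nat.hyperfilter_le_atTop (eventually_gt_atTop m)
    filter_upwards [this] with n hn
    simp [VV, hn]
  have h2 : ([i, j] : List α).Pairwise (· < ·) := by simp [h]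
  have h3 := W_map h2
  simp only [List.length_cons, List.length_nil, zero_add, Nat.reduceAdd] at h3
  rw [← h3, Ultrafilter.mem_map] at h1
  filter_upwards [h1] with x hx
  simpa using hx

lemma W_strictMonoOn {α : Type*} [LinearOrder α] (I : Finset α) :
    ∀ᶠ x in (W α : Filter (α → ℕ)), StrictMonoOn x I := by
  have : ∀ᶠ x in (W α : Filter (α → ℕ)), ∀ i ∈ I, ∀ j ∈ I, i < j → x i < x j := by
    rw [Finset.eventually_all]
    intro i _
    rw [Finset.eventually_all]
    intro j _
    by_cases h : i < j
    · filter_upwards [W_lt h] with x hx _ using hx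
    · exact Eventually.of_forall fun x h' => absurd h' h
  filter_upwards [this] with x hx i hi j hj hij using hx i hi j hj hij

lemma ultra_exists_tendsto {ι : Type*} (U : Ultrafilter ι) (f : ι → ℝ) (M : ℝ)
    (h : ∀ i, |f i| ≤ M) : ∃ c, Tendsto f U (𝓝 c) := by
  have h1 : ((U.map f : Ultrafilter ℝ) : Filter ℝ) ≤ 𝓟 (Set.Icc (-M) M) := by
    rw [le_principal_iff, Ultrafilter.coe_map, mem_map]
    exact Eventually.of_forall fun i => abs_le.1 (h i)
  obtain ⟨c, -, hc⟩ := isCompact_Icc.ultrafilter_le_nhds _ h1
  exact ⟨c, hc⟩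

end Vale.Agent.P125
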